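import Mathlib

/-! # P097 / RAT-K: extension of a germ along a parabolic self map of a half strip.

Owner: helper990. -/

set_option linter.all false

open Complex Metric Filter Topology Set

namespace Vale.Agent.P097.H990

/-- left half strip -/
def HS (Y : ℝ) : Set ℂ := {ω | ω.re < 0 ∧ |ω.im| < Y}

theorem isOpen_HS (Y : ℝ) : IsOpen (HS Y) :=
  (isOpen_lt Complex.continuous_re continuous_const).inter
    (isOpen_lt (Complex.continuous_im.abs) continuous_const)

theorem convex_HS (Y : ℝ) : Convex ℝ (HS Y) := by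
  have h1 : Convex ℝ {ω : ℂ | ω.re < 0} := convex_halfSpace_re_lt 0
  have h2 : Convex ℝ {ω : ℂ | ω.im < Y} := convex_halfSpace_im_lt Y
  have h3 : Convex ℝ {ω : ℂ | -Y < ω.im} := convex_halfSpace_im_gt (-Y)
  have : HS Y = {ω : ℂ | ω.re < 0} ∩ ({ω : ℂ | ω.im < Y} ∩ {ω : ℂ | -Y < ω.im}) := by
    ext ω
    simp only [HS, mem_setOf_eq, mem_inter_iff, abs_lt]
    tauto
  rw [this]
  exact h1.inter (h2.inter h3)

theorem ofReal_mem_HS {Y : ℝ} (hY : 0 < Y) {x : ℝ} (hx : x < 0) : (x : ℂ) ∈ HS Y := by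
  simp [HS, hx, hY]

/-- Harnack type inequality for maps into the right half plane -/
theorem harnack {g : ℂ → ℂ} {c : ℂ} {r : ℝ} (hr : 0 < r) (hg : DifferentiableOn ℂ g (ball c r))
    (hre : ∀ z ∈ ball c r, 0 < (g z).re) {z : ℂ} (hz : ‖z - c‖ ≤ r / 2) :
    ‖g z‖ ≤ 3 * ‖g c‖ := by
  have hcb : c ∈ ball c r := mem_ball_self hr
  have hzb : z ∈ ball c r := by
    rw [mem_ball, dist_eq_norm]; linarith
  have hgc := hre c hcb
  have hden : ∀ z ∈ ball c r, g z + (starRingEnd ℂ) (g c) ≠ 0 := by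
    intro z hz h0
    have h1 := congrArg Complex.re h0
    simp at h1
    have := hre z hz
    linarith
  set ψ : ℂ → ℂ := fun z => (g z - g c) / (g z + (starRingEnd ℂ) (g c)) with hψ
  have hψd : DifferentiableOn ℂ ψ (ball c r) :=
    (hg.sub_const _).div (hg.add_const _) hden
  have hψc : ψ c = 0 := by simp [hψ]
  have hψ1 : MapsTo ψ (ball c r) (ball (ψ c) 1) := by
    intro z hz
    rw [hψc, mem_ball_zero_iff, hψ]
    simp only [norm_div]
    rw [div_lt_one (norm_pos_iff.2 (hden z hz))]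
    have h1 := hre z hz
    have h2 : ‖g z - g c‖ ^ 2 < ‖g z + (starRingEnd ℂ) (g c)‖ ^ 2 := by
      rw [← Complex.normSq_eq_norm_sq, ← Complex.normSq_eq_norm_sq, Complex.normSq_apply,
        Complex.normSq_apply]
      simp
      nlinarith [mul_pos h1 hgc]
    exact lt_of_pow_lt_pow_left₀ 2 (norm_nonneg _) h2
  have h3 := Complex.dist_le_div_mul_dist_of_mapsTo_ball hψd (hψ1.mono_right ball_subset_closedBall)
    hzb
  rw [hψc, dist_zero_right, dist_eq_norm] at h3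
  have h4 : ‖ψ z‖ ≤ 1 / 2 := by
    refine h3.trans ?_
    calc 1 / r * ‖z - c‖ ≤ 1 / r * (r / 2) := by gcongr
      _ = 1 / 2 := by field_simp
  have h5 : g z - g c = ψ z * (g z + (starRingEnd ℂ) (g c)) := by
    rw [hψ]; field_simp [hden z hzb]
  have h6 : ‖g z - g c‖ ≤ 1 / 2 * (‖g z‖ + ‖g c‖) := by
    rw [h5, norm_mul]
    have h7 : ‖g z + (starRingEnd ℂ) (g c)‖ ≤ ‖g z‖ + ‖g c‖ := by
      refine (norm_add_le _ _).trans ?_
      rw [Complex.norm_conj]
    exact mul_le_mul h4 h7 (norm_nonneg _) (by norm_num)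
  have h8 := norm_add_le (g z - g c) (g c)
  rw [sub_add_cancel] at h8
  linarith

section iter

variable {Y : ℝ} {T : ℂ → ℂ}

theorem iter_mapsTo (hm : MapsTo T (HS Y) (HS Y)) (n : ℕ) : MapsTo (T^[n]) (HS Y) (HS Y) :=
  hm.iterate n

theorem iter_diff (hT : DifferentiableOn ℂ T (HS Y)) (hm : MapsTo T (HS Y) (HS Y)) (n : ℕ) :
    DifferentiableOn ℂ (T^[n]) (HS Y) := by
  induction n with
  | zero => simpa using differentiableOn_id
  | succ n ih =>
    rw [Function.iterate_succ']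
    exact hT.comp ih (iter_mapsTo hm n)

theorem iter_harnack (hT : DifferentiableOn ℂ T (HS Y)) (hm : MapsTo T (HS Y) (HS Y)) {c : ℂ}
    {r : ℝ} (hr : 0 < r) (hb : ball c r ⊆ HS Y) {z : ℂ} (hz : ‖z - c‖ ≤ r / 2) (n : ℕ) :
    ‖T^[n] z‖ ≤ 3 * ‖T^[n] c‖ := by
  have h1 := harnack (g := fun z => -(T^[n] z)) hr (((iter_diff hT hm n).mono hb).neg)
    (fun z hz => by
      have := (iter_mapsTo hm n (hb hz)).1
      simpa using this) hz
  simpa using h1

/-- real orbits converge to `0` -/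
theorem real_orbit (hY : 0 < Y) (hT : DifferentiableOn ℂ T (HS Y)) (hm : MapsTo T (HS Y) (HS Y))
    (hreal : ∀ x : ℝ, x < 0 → ∃ x' : ℝ, T x = x' ∧ x < x') {x : ℝ} (hx : x < 0) :
    (∀ n, ∃ y : ℝ, T^[n] x = y ∧ x ≤ y ∧ y < 0) ∧ Tendsto (fun n => T^[n] (x : ℂ)) atTop (𝓝 0) := by
  classical
  choose! t ht1 ht2 using hreal
  have htneg : ∀ y : ℝ, y < 0 → t y < 0 := by
    intro y hy
    have := (hm (ofReal_mem_HS hY hy)).1
    rw [ht1 y hy] at this
    simpa using this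
  set u : ℕ → ℝ := fun n => t^[n] x with hu
  have hun : ∀ n, u n < 0 := by
    intro n
    induction n with
    | zero => simpa [hu] using hx
    | succ n ih =>
      have : u (n + 1) = t (u n) := by simp only [hu, Function.iterate_succ', Function.comp]
      rw [this]; exact htneg _ ih
  have husucc : ∀ n, u (n + 1) = t (u n) := by
    intro n; simp only [hu, Function.iterate_succ', Function.comp]
  have hTu : ∀ n, T^[n] (x : ℂ) = (u n : ℂ) := by
    intro n
    induction n with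
    | zero => simp [hu]
    | succ n ih =>
      rw [Function.iterate_succ', Function.comp, ih, husucc, ht1 _ (hun n)]
  have hmono : Monotone u := monotone_nat_of_le_succ fun n => by
    rw [husucc]; exact (ht2 _ (hun n)).le
  have hbdd : BddAbove (Set.range u) := ⟨0, by rintro _ ⟨n, rfl⟩; exact (hun n).le⟩
  have hlim := tendsto_atTop_ciSup hmono hbdd
  set ℓ : ℝ := ⨆ n, u n with hℓ
  have hℓ0 : ℓ ≤ 0 := ciSup_le fun n => (hun n).le
  have hℓ' : ℓ = 0 := by
    by_contra hne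
    have hlt : ℓ < 0 := lt_of_le_of_ne hℓ0 hne
    have hmem : (ℓ : ℂ) ∈ HS Y := ofReal_mem_HS hY hlt
    have hTc : ContinuousAt T ℓ :=
      (hT.differentiableAt ((isOpen_HS Y).mem_nhds hmem)).continuousAt
    have h1 : Tendsto (fun n => (u n : ℂ)) atTop (𝓝 (ℓ : ℂ)) :=
      (Complex.continuous_ofReal.tendsto _).comp hlim
    have h2 : Tendsto (fun n => T (u n : ℂ)) atTop (𝓝 (T ℓ)) := hTc.tendsto.comp h1
    have h3 : Tendsto (fun n => T (u n : ℂ)) atTop (𝓝 (ℓ : ℂ)) := by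
      have : (fun n => T (u n : ℂ)) = fun n => (u (n + 1) : ℂ) := by
        ext n; rw [husucc, ht1 _ (hun n)]
      rw [this]
      exact h1.comp (tendsto_add_atTop_nat 1)
    have h4 := tendsto_nhds_unique h2 h3
    rw [ht1 _ hlt] at h4
    have h5 : t ℓ = ℓ := by exact_mod_cast h4
    have h6 := ht2 _ hlt
    linarith
  refine ⟨fun n => ⟨u n, hTu n, ?_, hun n⟩, ?_⟩
  · have := hmono (Nat.zero_le n)
    simpa [hu] using this
  · have : (fun n => T^[n] (x : ℂ)) = fun n => (u n : ℂ) := by ext n; rw [hTu]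
    rw [this]
    have h1 := (Complex.continuous_ofReal.tendsto _).comp hlim
    rw [hℓ'] at h1
    simpa [Function.comp_def] using h1

/-- all orbits converge to `0` -/
theorem orbit (hY : 0 < Y) (hT : DifferentiableOn ℂ T (HS Y)) (hm : MapsTo T (HS Y) (HS Y))
    (hreal : ∀ x : ℝ, x < 0 → ∃ x' : ℝ, T x = x' ∧ x < x') {z : ℂ} (hz : z ∈ HS Y) :
    Tendsto (fun n => T^[n] z) atTop (𝓝 0) := by
  set K : Set ℂ := {z | z ∈ HS Y ∧ Tendsto (fun n => T^[n] z) atTop (𝓝 0)} with hK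
  have hstep : ∀ c r, 0 < r → ball c r ⊆ HS Y → Tendsto (fun n => T^[n] c) atTop (𝓝 0) →
      ∀ z, ‖z - c‖ ≤ r / 2 → z ∈ K := by
    intro c r hr hb hc z hz
    refine ⟨hb (by rw [mem_ball, dist_eq_norm]; linarith), ?_⟩
    rw [tendsto_zero_iff_norm_tendsto_zero] at hc ⊢
    have h2 : Tendsto (fun n => 3 * ‖T^[n] c‖) atTop (𝓝 0) := by
      simpa using hc.const_mul 3
    exact squeeze_zero (fun n => norm_nonneg _) (fun n => iter_harnack hT hm hr hb hz n) h2
  have hKo : IsOpen K := by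
    rw [Metric.isOpen_iff]
    rintro c ⟨hc1, hc2⟩
    obtain ⟨r, hr, hb⟩ := Metric.isOpen_iff.1 (isOpen_HS Y) c hc1
    refine ⟨r / 2, by linarith, fun z hz => hstep c r hr hb hc2 z ?_⟩
    rw [mem_ball, dist_eq_norm] at hz
    exact hz.le
  have hKne : (HS Y ∩ K).Nonempty := by
    have h1 : ((-1 : ℝ) : ℂ) ∈ HS Y := ofReal_mem_HS hY (by norm_num)
    exact ⟨_, h1, h1, (real_orbit hY hT hm hreal (by norm_num)).2⟩
  have hcl : closure K ∩ HS Y ⊆ K := by
    rintro z ⟨hz1, hz2⟩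
    obtain ⟨r, hr, hb⟩ := Metric.isOpen_iff.1 (isOpen_HS Y) z hz2
    obtain ⟨c, hcK, hc⟩ := Metric.mem_closure_iff.1 hz1 (r / 4) (by linarith)
    rw [dist_eq_norm] at hc
    refine hstep c (r / 2) (by linarith) ?_ hcK.2 z (by linarith)
    intro w hw
    apply hb
    rw [mem_ball, dist_eq_norm] at hw ⊢
    have h5 := norm_sub_le (w - c) (z - c)
    rw [sub_sub_sub_cancel_right] at h5
    linarith
  exact (((convex_HS Y).isPreconnected).subset_of_closure_inter_subset hKo hKne hcl hz).2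

/-- locally uniform convergence of the orbits -/
theorem orbit_unif (hY : 0 < Y) (hT : DifferentiableOn ℂ T (HS Y)) (hm : MapsTo T (HS Y) (HS Y))
    (hreal : ∀ x : ℝ, x < 0 → ∃ x' : ℝ, T x = x' ∧ x < x') {z : ℂ} (hz : z ∈ HS Y) {ε : ℝ}
    (hε : 0 < ε) : ∃ r > 0, ball z r ⊆ HS Y ∧ ∃ N, ∀ n ≥ N, ∀ w ∈ ball z r, ‖T^[n] w‖ < ε := by
  obtain ⟨r, hr, hb⟩ := Metric.isOpen_iff.1 (isOpen_HS Y) z hz
  have h1 := orbit hY hT hm hreal hz
  rw [Metric.tendsto_atTop] at h1
  obtain ⟨N, hN⟩ := h1 (ε / 3) (by linarith)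
  refine ⟨r / 2, by linarith, (ball_subset_ball (by linarith)).trans hb, N, fun n hn w hw => ?_⟩
  have h2 := hN n hn
  rw [dist_zero_right] at h2
  have h3 : ‖w - z‖ ≤ r / 2 := by
    rw [mem_ball, dist_eq_norm] at hw; exact hw.le
  have h4 := iter_harnack hT hm hr hb h3 n
  linarith

end iter

/-- extension of a germ along a parabolic self map of a half strip -/
theorem core {Y : ℝ} (hY : 0 < Y) {T p f : ℂ → ℂ} (hT : DifferentiableOn ℂ T (HS Y))
    (hp : DifferentiableOn ℂ p (HS Y)) (hm : MapsTo T (HS Y) (HS Y))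
    (hp0 : ∀ ω ∈ HS Y, p ω ≠ 0) (hreal : ∀ x : ℝ, x < 0 → ∃ x' : ℝ, T x = x' ∧ x < x')
    (hf : AnalyticAt ℂ f 0) (hne : ¬ ∀ᶠ z in 𝓝 (0 : ℂ), f z = 0)
    (hlaw : ∀ᶠ ω in 𝓝[HS Y] 0, f ω = p ω * f (T ω)) :
    ∃ F : ℂ → ℂ, DifferentiableOn ℂ F (HS Y) ∧ (∀ ω ∈ HS Y, F ω = p ω * F (T ω)) ∧
      (∀ ω ∈ HS Y, F ω ≠ 0) ∧ ∀ᶠ ω in 𝓝[HS Y] 0, F ω = f ω := by
  classical
  -- a good radius
  obtain ⟨ε₁, hε₁, hl⟩ : ∃ ε > 0, ∀ ω ∈ HS Y, ‖ω‖ < ε → f ω = p ω * f (T ω) := by
    rw [eventually_nhdsWithin_iff, Metric.eventually_nhds_iff] at hlaw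
    obtain ⟨ε, hε, h⟩ := hlaw
    exact ⟨ε, hε, fun ω h1 h2 => h (by simpa using h2) h1⟩
  obtain ⟨ε₂, hε₂, ha⟩ : ∃ ε > 0, ∀ ω : ℂ, ‖ω‖ < ε → AnalyticAt ℂ f ω := by
    have h1 := hf.eventually_analyticAt
    rw [Metric.eventually_nhds_iff] at h1
    obtain ⟨ε, hε, h⟩ := h1
    exact ⟨ε, hε, fun ω h2 => h (by simpa using h2)⟩
  obtain ⟨ε₃, hε₃, hn⟩ : ∃ ε > 0, ∀ ω : ℂ, ω ≠ 0 → ‖ω‖ < ε → f ω ≠ 0 := by
    have h1 := (hf.eventually_eq_zero_or_eventually_ne_zero).resolve_left hne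
    rw [eventually_nhdsWithin_iff, Metric.eventually_nhds_iff] at h1
    obtain ⟨ε, hε, h⟩ := h1
    exact ⟨ε, hε, fun ω h2 h3 => h (by simpa using h3) h2⟩
  set ε : ℝ := min ε₁ (min ε₂ ε₃) with hεdef
  have hε : 0 < ε := lt_min hε₁ (lt_min hε₂ hε₃)
  have he1 : ε ≤ ε₁ := min_le_left _ _
  have he2 : ε ≤ ε₂ := (min_le_right _ _).trans (min_le_left _ _)
  have he3 : ε ≤ ε₃ := (min_le_right _ _).trans (min_le_right _ _)
  set a : ℕ → ℂ → ℂ := fun n ω => (∏ k ∈ Finset.range n, p (T^[k] ω)) * f (T^[n] ω) with ha_def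
  set F : ℂ → ℂ := fun ω => limUnder atTop (fun n => a n ω) with hF
  have hmem : ∀ ω ∈ HS Y, ∀ n, T^[n] ω ∈ HS Y := fun ω hω n => iter_mapsTo hm n hω
  have hconst : ∀ ω ∈ HS Y, ∀ N, (∀ n ≥ N, ‖T^[n] ω‖ < ε) → ∀ n ≥ N, a n ω = a N ω := by
    intro ω hω N hN n hn
    induction n, hn using Nat.le_induction with
    | base => rfl
    | succ n hn ih =>
      rw [← ih]
      simp only [ha_def]
      rw [Finset.prod_range_succ, hl (T^[n] ω) (hmem ω hω n) ((hN n hn).trans_le he1),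
        Function.iterate_succ', Function.comp]
      ring
  have hFN : ∀ ω ∈ HS Y, ∀ N, (∀ n ≥ N, ‖T^[n] ω‖ < ε) → F ω = a N ω := by
    intro ω hω N hN
    have h1 : Tendsto (fun n => a n ω) atTop (𝓝 (a N ω)) := by
      refine tendsto_const_nhds.congr' ?_
      filter_upwards [eventually_ge_atTop N] with n hn
      exact (hconst ω hω N hN n hn).symm
    exact h1.limUnder_eq
  have hex : ∀ ω ∈ HS Y, ∃ N, ∀ n ≥ N, ‖T^[n] ω‖ < ε := by
    intro ω hω
    obtain ⟨r, hr, -, N, hN⟩ := orbit_unif hY hT hm hreal hω hε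
    exact ⟨N, fun n hn => hN n hn ω (mem_ball_self hr)⟩
  have hFd : DifferentiableOn ℂ F (HS Y) := by
    intro ω hω
    obtain ⟨r, hr, hb, N, hN⟩ := orbit_unif hY hT hm hreal hω hε
    have h1 : F =ᶠ[𝓝 ω] a N := by
      filter_upwards [ball_mem_nhds ω hr] with w hw
      exact hFN w (hb hw) N fun n hn => hN n hn w hw
    have hTk : ∀ k, DifferentiableAt ℂ (T^[k]) ω := fun k =>
      (iter_diff hT hm k).differentiableAt ((isOpen_HS Y).mem_nhds hω)
    have h2 : DifferentiableAt ℂ (a N) ω := by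
      simp only [ha_def]
      refine DifferentiableAt.mul ?_ ?_
      · have : (fun ω => ∏ k ∈ Finset.range N, p (T^[k] ω)) =
            fun ω => ∏ k ∈ Finset.range N, (fun k ω => p (T^[k] ω)) k ω := rfl
        rw [this]
        refine DifferentiableAt.fun_finset_prod fun k _ => ?_
        exact (hp.differentiableAt ((isOpen_HS Y).mem_nhds (hmem ω hω k))).comp ω (hTk k)
      · have h3 : DifferentiableAt ℂ f (T^[N] ω) :=
          (ha _ ((hN N le_rfl ω (mem_ball_self hr)).trans_le he2)).differentiableAt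
        exact h3.comp ω (hTk N)
    exact (h2.congr_of_eventuallyEq h1).differentiableWithinAt
  refine ⟨F, hFd, ?_, ?_, ?_⟩
  · intro ω hω
    obtain ⟨N, hN⟩ := hex ω hω
    have h1 : ∀ n ≥ N, ‖T^[n] (T ω)‖ < ε := by
      intro n hn
      have := hN (n + 1) (by omega)
      rwa [Function.iterate_succ, Function.comp] at this
    rw [hFN (T ω) (hm hω) N h1, hFN ω hω (N + 1) (fun n hn => hN n (by omega))]
    simp only [ha_def]
    rw [Finset.prod_range_succ']
    simp only [Function.iterate_succ, Function.comp, Function.iterate_zero, id]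
    ring
  · intro ω hω
    obtain ⟨N, hN⟩ := hex ω hω
    rw [hFN ω hω N hN]
    simp only [ha_def]
    refine mul_ne_zero (Finset.prod_ne_zero_iff.2 fun k _ => hp0 _ (hmem ω hω k)) ?_
    refine hn _ ?_ ((hN N le_rfl).trans_le he3)
    intro h0
    have := (hmem ω hω N).1
    rw [h0] at this
    simp at this
  · have hU : IsPreconnected (HS Y ∩ ball 0 ε) :=
      ((convex_HS Y).inter (convex_ball 0 ε)).isPreconnected
    have hUo : IsOpen (HS Y ∩ ball 0 ε) := (isOpen_HS Y).inter isOpen_ball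
    have hFa : AnalyticOnNhd ℂ F (HS Y ∩ ball 0 ε) :=
      (hFd.mono inter_subset_left).analyticOnNhd hUo
    have hfa : AnalyticOnNhd ℂ f (HS Y ∩ ball 0 ε) := fun ω hω =>
      ha ω ((mem_ball_zero_iff.1 hω.2).trans_le he2)
    have hreq : ∀ x : ℝ, x < 0 → |x| < ε → F x = f x := by
      intro x hx hxε
      have h1 := (real_orbit hY hT hm hreal hx).1
      have h2 : ∀ n ≥ 0, ‖T^[n] (x : ℂ)‖ < ε := by
        intro n _
        obtain ⟨y, hy1, hy2, hy3⟩ := h1 n
        rw [hy1, Complex.norm_real, Real.norm_eq_abs, abs_of_neg hy3]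
        rw [abs_of_neg hx] at hxε
        linarith
      rw [hFN x (ofReal_mem_HS hY hx) 0 h2]
      simp [ha_def]
    have hz0 : ((-(ε / 2) : ℝ) : ℂ) ∈ HS Y ∩ ball 0 ε := by
      refine ⟨ofReal_mem_HS hY (by linarith), ?_⟩
      rw [mem_ball_zero_iff, Complex.norm_real, Real.norm_eq_abs, abs_neg, abs_of_pos (by linarith)]
      linarith
    have hfreq : ∃ᶠ z in 𝓝[≠] (((-(ε / 2) : ℝ)) : ℂ), F z = f z := by
      have h1 : Tendsto (fun x : ℝ => (x : ℂ)) (𝓝[≠] (-(ε / 2))) (𝓝[≠] (((-(ε / 2) : ℝ)) : ℂ)) := by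
        refine tendsto_nhdsWithin_iff.2 ⟨?_, ?_⟩
        · exact (Complex.continuous_ofReal.tendsto _).mono_left nhdsWithin_le_nhds
        · filter_upwards [self_mem_nhdsWithin] with x hx
          intro h
          exact hx (Complex.ofReal_injective h)
      refine h1.frequently ?_
      refine Eventually.frequently ?_
      refine eventually_nhdsWithin_of_eventually_nhds ?_
      have h2 : ∀ᶠ x : ℝ in 𝓝 (-(ε / 2)), x < 0 ∧ |x| < ε := by
        refine (isOpen_lt continuous_id continuous_const).eventually_mem (by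
          show -(ε / 2) < 0; linarith) |>.and ?_
        refine (isOpen_lt continuous_abs continuous_const).eventually_mem (by
          show |-(ε / 2)| < ε
          rw [abs_neg, abs_of_pos (by linarith)]; linarith)
      filter_upwards [h2] with x hx
      exact hreq x hx.1 hx.2
    have heq := hFa.eqOn_of_preconnected_of_frequently_eq hfa hU hz0 hfreq
    rw [eventually_nhdsWithin_iff]
    filter_upwards [ball_mem_nhds (0 : ℂ) hε] with ω hω1 hω2
    exact heq ⟨hω2, hω1⟩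

end Vale.Agent.P097.H990
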