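import Vale.Agent.P097.H990.Lg

/-! # P097 / RAT-K: expanding maps of a half strip; the chord map `L`.

Owner: helper990. -/

set_option linter.all false

open Complex Metric Filter Topology Set
open scoped ComplexConjugate

namespace Vale.Agent.P097.H990

/-- mean value inequality in the direction of the segment -/
theorem segA {f : ℂ → ℂ} {z w : ℂ} {k : ℝ}
    (hc : ∀ t ∈ Icc (0 : ℝ) 1, ContinuousAt f (w + t * (z - w)))
    (hd : ∀ t ∈ Ioo (0 : ℝ) 1, DifferentiableAt ℂ f (w + t * (z - w)) ∧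
      k ≤ (deriv f (w + t * (z - w))).re) :
    k * ‖z - w‖ ^ 2 ≤ (conj (z - w) * (f z - f w)).re := by
  set φ : ℝ → ℝ := fun t => (conj (z - w) * f (w + t * (z - w))).re with hφ
  have h1 : ∀ t ∈ Ioo (0 : ℝ) 1, HasDerivAt φ
      ((conj (z - w) * (deriv f (w + t * (z - w)) * (z - w))).re) t := by
    intro t ht
    have h2 : HasDerivAt (fun s : ℂ => w + s * (z - w)) (z - w) (t : ℂ) := by
      have := ((hasDerivAt_id (t : ℂ)).mul_const (z - w)).const_add w
      simpa using this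
    have h3 : HasDerivAt (fun s : ℂ => f (w + s * (z - w)))
        (deriv f (w + t * (z - w)) * (z - w)) (t : ℂ) :=
      HasDerivAt.comp (t : ℂ) (hd t ht).1.hasDerivAt h2
    exact (h3.const_mul (conj (z - w))).real_of_complex
  have h2 : ContinuousOn φ (Icc 0 1) := by
    intro t ht
    refine ContinuousAt.continuousWithinAt ?_
    have h3 : ContinuousAt (fun t : ℝ => w + (t : ℂ) * (z - w)) t := by fun_prop
    have h4 : ContinuousAt (fun t : ℝ => f (w + (t : ℂ) * (z - w))) t :=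
      ContinuousAt.comp (f := fun t : ℝ => w + (t : ℂ) * (z - w)) (hc t ht) h3
    exact Complex.continuous_re.continuousAt.comp (continuousAt_const.mul h4)
  obtain ⟨c, hc1, hc2⟩ := exists_hasDerivAt_eq_slope φ _ zero_lt_one h2 h1
  have h5 : (conj (z - w) * (deriv f (w + c * (z - w)) * (z - w))).re =
      ‖z - w‖ ^ 2 * (deriv f (w + c * (z - w))).re := by
    have h6 : conj (z - w) * (deriv f (w + c * (z - w)) * (z - w)) =
        ((‖z - w‖ ^ 2 : ℝ) : ℂ) * deriv f (w + c * (z - w)) := by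
      have h7 : (z - w) * conj (z - w) = ((‖z - w‖ ^ 2 : ℝ) : ℂ) := by
        rw [Complex.mul_conj, Complex.normSq_eq_norm_sq]
      linear_combination (deriv f (w + c * (z - w))) * h7
    rw [h6, Complex.re_ofReal_mul]
  rw [h5] at hc2
  have h8 : φ 1 - φ 0 = (conj (z - w) * (f z - f w)).re := by
    simp only [hφ]
    rw [← Complex.sub_re, ← mul_sub]
    simp
  rw [← h8]
  have h9 := (hd c hc1).2
  have h10 : (0 : ℝ) ≤ ‖z - w‖ ^ 2 := by positivity
  have h11 := mul_le_mul_of_nonneg_left h9 h10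
  rw [hc2] at h11
  rw [sub_zero, div_one] at h11
  linarith

/-- inverse of an expanding holomorphic map -/
theorem exists_inv {U : Set ℂ} (hU : IsOpen U) {L : ℂ → ℂ} (hL : DifferentiableOn ℂ L U)
    (hd0 : ∀ z ∈ U, deriv L z ≠ 0) {k : ℝ} (hk : 0 < k)
    (hex : ∀ z ∈ U, ∀ w ∈ U, k * ‖z - w‖ ≤ ‖L z - L w‖) :
    IsOpen (L '' U) ∧ ∃ σ : ℂ → ℂ, DifferentiableOn ℂ σ (L '' U) ∧
      (∀ v ∈ L '' U, σ v ∈ U ∧ L (σ v) = v) ∧ ∀ z ∈ U, σ (L z) = z := by
  classical
  have hinj : ∀ z ∈ U, ∀ w ∈ U, L z = L w → z = w := by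
    intro z hz w hw h
    have h1 := hex z hz w hw
    rw [h, sub_self, norm_zero] at h1
    have h2 : ‖z - w‖ = 0 := by
      have := norm_nonneg (z - w)
      by_contra hne
      have : 0 < ‖z - w‖ := lt_of_le_of_ne this (Ne.symm hne)
      nlinarith
    exact sub_eq_zero.1 (norm_eq_zero.1 h2)
  have hopen : IsOpen (L '' U) := by
    rw [isOpen_iff_mem_nhds]
    rintro _ ⟨z, hz, rfl⟩
    have ha : AnalyticAt ℂ L z := hL.analyticAt (hU.mem_nhds hz)
    have h1 := ha.hasStrictDerivAt.map_nhds_eq (hd0 z hz)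
    rw [← h1]
    exact image_mem_map (hU.mem_nhds hz)
  set σ : ℂ → ℂ := fun v => if h : ∃ z ∈ U, L z = v then h.choose else 0 with hσ
  have hσ1 : ∀ v ∈ L '' U, σ v ∈ U ∧ L (σ v) = v := by
    rintro v ⟨z, hz, hzv⟩
    have h : ∃ z ∈ U, L z = v := ⟨z, hz, hzv⟩
    simp only [hσ, dif_pos h]
    exact h.choose_spec
  have hσ2 : ∀ z ∈ U, σ (L z) = z := by
    intro z hz
    have h := hσ1 (L z) (mem_image_of_mem L hz)
    exact hinj _ h.1 _ hz h.2
  refine ⟨hopen, σ, ?_, hσ1, hσ2⟩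
  intro v hv
  have hvn : L '' U ∈ 𝓝 v := hopen.mem_nhds hv
  have hcont : ContinuousAt σ v := by
    rw [Metric.continuousAt_iff]
    intro ε hε
    obtain ⟨δ, hδ, hball⟩ := Metric.mem_nhds_iff.1 hvn
    refine ⟨min δ (k * ε), lt_min hδ (by positivity), fun {x} hx => ?_⟩
    have hx1 : x ∈ L '' U := hball (lt_of_lt_of_le hx (min_le_left _ _))
    have hx2 : dist x v < k * ε := lt_of_lt_of_le hx (min_le_right _ _)
    have h1 := hex _ (hσ1 x hx1).1 _ (hσ1 v hv).1
    rw [(hσ1 x hx1).2, (hσ1 v hv).2] at h1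
    rw [dist_eq_norm] at hx2 ⊢
    have h2 : k * ‖σ x - σ v‖ < k * ε := h1.trans_lt hx2
    exact lt_of_mul_lt_mul_left h2 hk.le
  have h1 : HasDerivAt L (deriv L (σ v)) (σ v) :=
    (hL.differentiableAt (hU.mem_nhds (hσ1 v hv).1)).hasDerivAt
  have h2 := HasDerivAt.of_local_left_inverse hcont h1 (hd0 _ (hσ1 v hv).1) (by
    filter_upwards [hvn] with x hx
    exact (hσ1 x hx).2)
  exact h2.differentiableAt.differentiableWithinAt

/-! ## the map `L` -/

/-- logarithm of the chord direction -/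
noncomputable def Lb (b : ℝ) (τ : ℂ) : ℂ := lE ((b : ℂ) * τ) - lE (((b - 1 : ℝ) : ℂ) * τ)

theorem mem_ZS {b : ℝ} (hb : 1 ≤ b) {τ : ℂ} (h : |τ.im| < 2 * Real.pi / b) {t : ℝ} (h0 : 0 ≤ t)
    (ht : t ≤ b) : (t : ℂ) * τ ∈ ZS := by
  have hb0 : 0 < b := by linarith
  show |((t : ℂ) * τ).im| < 2 * Real.pi
  rw [Complex.im_ofReal_mul, abs_mul, abs_of_nonneg h0]
  rw [lt_div_iff₀ hb0] at h
  nlinarith [abs_nonneg τ.im]

theorem exp_Lb {b : ℝ} (hb : 1 ≤ b) {τ : ℂ} (h : |τ.im| < 2 * Real.pi / b) :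
    Complex.exp (Lb b τ) = E1 ((b : ℂ) * τ) / E1 (((b - 1 : ℝ) : ℂ) * τ) := by
  rw [Lb, Complex.exp_sub, exp_lE (mem_ZS hb h (by linarith) le_rfl),
    exp_lE (mem_ZS hb h (by linarith) (by linarith))]

theorem Lb_zero (b : ℝ) : Lb b 0 = 0 := by simp [Lb]

theorem Lb_neg {b : ℝ} (hb : 1 ≤ b) {τ : ℂ} (h : |τ.im| < 2 * Real.pi / b) :
    Lb b (-τ) = Lb b τ - τ := by
  rw [Lb, Lb, mul_neg, mul_neg, lE_neg (mem_ZS hb h (by linarith) le_rfl),
    lE_neg (mem_ZS hb h (by linarith) (by linarith))]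
  push_cast
  ring

theorem Lb_conj {b : ℝ} (hb : 1 ≤ b) {τ : ℂ} (h : |τ.im| < 2 * Real.pi / b) :
    Lb b (conj τ) = conj (Lb b τ) := by
  have e1 : (b : ℂ) * conj τ = conj ((b : ℂ) * τ) := by simp
  have e2 : ((b - 1 : ℝ) : ℂ) * conj τ = conj (((b - 1 : ℝ) : ℂ) * τ) := by
    rw [map_mul, Complex.conj_ofReal]
  rw [Lb, Lb, e1, e2, lE_conj (mem_ZS hb h (by linarith) le_rfl),
    lE_conj (mem_ZS hb h (by linarith) (by linarith)), map_sub]

theorem Lb_deriv {b : ℝ} (hb : 1 ≤ b) {τ : ℂ} (h : |τ.im| < 2 * Real.pi / b) :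
    HasDerivAt (Lb b) (b * qE ((b : ℂ) * τ) - ((b - 1 : ℝ) : ℂ) * qE (((b - 1 : ℝ) : ℂ) * τ)) τ := by
  have h1 : ∀ t : ℝ, (t : ℂ) * τ ∈ ZS →
      HasDerivAt (fun τ => lE ((t : ℂ) * τ)) ((t : ℂ) * qE ((t : ℂ) * τ)) τ := by
    intro t ht
    have h2 : HasDerivAt (fun τ : ℂ => (t : ℂ) * τ) (t : ℂ) τ := by
      simpa using (hasDerivAt_id τ).const_mul (t : ℂ)
    have h3 := HasDerivAt.comp τ (lE_deriv ht) h2
    rw [mul_comm]
    exact h3
  exact (h1 b (mem_ZS hb h (by linarith) le_rfl)).sub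
    (h1 (b - 1) (mem_ZS hb h (by linarith) (by linarith)))

theorem Lb_re_deriv {b : ℝ} (hb : 1 ≤ b) {τ : ℂ} (h : |τ.im| < 2 * Real.pi / b) (hx : 0 < τ.re) :
    1 / 2 < (deriv (Lb b) τ).re := by
  have hτ : τ ≠ 0 := by rintro rfl; simp at hx
  rw [(Lb_deriv hb h).deriv]
  set F : ℂ → ℂ := fun s => (s * τ) * qE (s * τ) / τ with hF
  have h1 : ∀ t ∈ Ioo (b - 1) b, HasDerivAt (fun t : ℝ => (F t).re)
      ((Complex.exp (t * τ) * (Complex.exp (t * τ) - 1 - (t * τ)) /
        (Complex.exp (t * τ) - 1) ^ 2).re) t := by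
    intro t ht
    have ht0 : 0 < t := by linarith [ht.1]
    have h2 : HasDerivAt (fun s : ℂ => s * τ) τ (t : ℂ) := by
      simpa using (hasDerivAt_id (t : ℂ)).mul_const τ
    have h3 := deriv_mul_qE (mem_ZS hb h ht0.le ht.2.le)
      (mul_ne_zero (by exact_mod_cast ht0.ne') hτ)
    have h4 := (HasDerivAt.comp (t : ℂ) h3 h2).div_const τ
    rw [mul_div_assoc, div_self hτ, mul_one] at h4
    exact h4.real_of_complex
  have h2 : ContinuousOn (fun t : ℝ => (F t).re) (Icc (b - 1) b) := by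
    intro t ht
    refine ContinuousAt.continuousWithinAt ?_
    have h3 : (t : ℂ) * τ ∈ ZS := mem_ZS hb h (by linarith [ht.1]) ht.2
    have h4 : ContinuousAt qE ((t : ℂ) * τ) :=
      (diff_qE.differentiableAt (isOpen_ZS.mem_nhds h3)).continuousAt
    have h5 : ContinuousAt (fun t : ℝ => (t : ℂ) * τ) t := by fun_prop
    have h6 : ContinuousAt (fun t : ℝ => qE ((t : ℂ) * τ)) t :=
      ContinuousAt.comp (f := fun t : ℝ => (t : ℂ) * τ) h4 h5
    exact Complex.continuous_re.continuousAt.comp ((h5.mul h6).div_const τ)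
  obtain ⟨c, hc1, hc2⟩ := exists_hasDerivAt_eq_slope _ _ (by linarith : b - 1 < b) h2 h1
  have hc0 : 0 < c := by linarith [hc1.1]
  have h3 := I1 (mem_ZS hb h hc0.le hc1.2.le) (by
    rw [Complex.re_ofReal_mul]; positivity)
  rw [hc2] at h3
  have h4 : ∀ t : ℝ, F t = t * qE (t * τ) := by
    intro t; simp only [hF]; field_simp
  rw [h4, h4, show b - (b - 1) = 1 by ring, div_one] at h3
  rw [Complex.sub_re]
  exact h3

theorem Lb_re_lt {b : ℝ} (hb : 1 ≤ b) {τ : ℂ} (h : |τ.im| < 2 * Real.pi / b) (hx : 0 ≤ τ.re)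
    (hτ : τ ≠ 0) : (Lb b τ).re < τ.re := by
  set F : ℂ → ℂ := fun s => lE (s * τ) - s * τ with hF
  have h1 : ∀ t ∈ Ioo (b - 1) b, HasDerivAt (fun t : ℝ => (F t).re)
      ((qE (t * τ) * τ - τ).re) t := by
    intro t ht
    have ht0 : 0 < t := by linarith [ht.1]
    have h2 : HasDerivAt (fun s : ℂ => s * τ) τ (t : ℂ) := by
      simpa using (hasDerivAt_id (t : ℂ)).mul_const τ
    have h3 := lE_deriv (mem_ZS hb h ht0.le ht.2.le)
    exact ((HasDerivAt.comp (t : ℂ) h3 h2).sub h2).real_of_complex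
  have h2 : ContinuousOn (fun t : ℝ => (F t).re) (Icc (b - 1) b) := by
    intro t ht
    refine ContinuousAt.continuousWithinAt ?_
    have h3 : (t : ℂ) * τ ∈ ZS := mem_ZS hb h (by linarith [ht.1]) ht.2
    have h5 : ContinuousAt (fun t : ℝ => (t : ℂ) * τ) t := by fun_prop
    have h6 : ContinuousAt (fun t : ℝ => lE ((t : ℂ) * τ)) t :=
      ContinuousAt.comp (f := fun t : ℝ => (t : ℂ) * τ) (lE_cont h3) h5
    exact Complex.continuous_re.continuousAt.comp (h6.sub h5)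
  obtain ⟨c, hc1, hc2⟩ := exists_hasDerivAt_eq_slope _ _ (by linarith : b - 1 < b) h2 h1
  have hc0 : 0 < c := by linarith [hc1.1]
  have hcτ : (c : ℂ) * τ ≠ 0 := mul_ne_zero (by exact_mod_cast hc0.ne') hτ
  have h3 := I2 (mem_ZS hb h hc0.le hc1.2.le) hcτ (by
    rw [Complex.re_ofReal_mul]; positivity)
  rw [show b - (b - 1) = 1 by ring, div_one] at hc2
  have h4 : (F (b : ℝ)).re - (F ((b - 1 : ℝ) : ℂ)).re = (Lb b τ).re - τ.re := by
    rw [← Complex.sub_re, ← Complex.sub_re]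
    congr 1
    simp only [hF, Lb]
    push_cast
    ring
  rw [h4] at hc2
  have h5 : (c : ℝ) * ((qE (c * τ) * τ - τ).re) = ((c : ℂ) * τ * qE (c * τ)).re - ((c : ℂ) * τ).re := by
    rw [← Complex.re_ofReal_mul, ← Complex.sub_re]
    congr 1
    ring
  rw [hc2] at h5
  have h6 : c * ((Lb b τ).re - τ.re) < 0 := by rw [h5]; linarith
  have h7 : (Lb b τ).re - τ.re < 0 := by
    by_contra hcon
    push Not at hcon
    have := mul_nonneg hc0.le hcon
    linarith
  linarith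

/-- right half strip -/
def RS (Y : ℝ) : Set ℂ := {v | 0 < v.re ∧ |v.im| < Y}

theorem isOpen_RS (Y : ℝ) : IsOpen (RS Y) :=
  (isOpen_lt continuous_const Complex.continuous_re).inter
    (isOpen_lt (Complex.continuous_im.abs) continuous_const)

theorem convex_RS (Y : ℝ) : Convex ℝ (RS Y) := by
  have h1 : Convex ℝ {ω : ℂ | 0 < ω.re} := convex_halfSpace_re_gt 0
  have h2 : Convex ℝ {ω : ℂ | ω.im < Y} := convex_halfSpace_im_lt Y
  have h3 : Convex ℝ {ω : ℂ | -Y < ω.im} := convex_halfSpace_im_gt (-Y)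
  have : RS Y = {ω : ℂ | 0 < ω.re} ∩ ({ω : ℂ | ω.im < Y} ∩ {ω : ℂ | -Y < ω.im}) := by
    ext ω
    simp only [RS, mem_setOf_eq, mem_inter_iff, abs_lt]
    tauto
  rw [this]
  exact h1.inter (h2.inter h3)

/-- basic inequality; `w` may lie on the imaginary axis -/
theorem Lb_seg {b : ℝ} (hb : 1 ≤ b) {z w : ℂ} (hz : z ∈ RS (2 * Real.pi / b))
    (hw1 : 0 ≤ w.re) (hw2 : |w.im| < 2 * Real.pi / b) :
    1 / 2 * ‖z - w‖ ^ 2 ≤ (conj (z - w) * (Lb b z - Lb b w)).re := by
  have hmem : ∀ t ∈ Icc (0 : ℝ) 1, |(w + t * (z - w)).im| < 2 * Real.pi / b := by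
    intro t ht
    have h1 : (w + t * (z - w)).im = (1 - t) * w.im + t * z.im := by
      rw [Complex.add_im, Complex.im_ofReal_mul, Complex.sub_im]; ring
    rw [h1]
    have h2 := hz.2
    rw [abs_lt] at h2 hw2 ⊢
    have h3 := ht.1
    have h4 := ht.2
    rcases eq_or_lt_of_le h3 with h5 | h5
    · rw [← h5]; constructor <;> linarith
    · constructor <;> nlinarith
  have hre : ∀ t ∈ Ioo (0 : ℝ) 1, 0 < (w + t * (z - w)).re := by
    intro t ht
    have h1 : (w + t * (z - w)).re = (1 - t) * w.re + t * z.re := by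
      rw [Complex.add_re, Complex.re_ofReal_mul, Complex.sub_re]; ring
    rw [h1]
    have h2 := mul_pos ht.1 hz.1
    have h3 : 0 ≤ (1 - t) * w.re := mul_nonneg (by linarith [ht.2]) hw1
    linarith
  refine segA (f := Lb b) (fun t ht => (Lb_deriv hb (hmem t ht)).continuousAt) fun t ht => ?_
  have ht' : t ∈ Icc (0 : ℝ) 1 := ⟨ht.1.le, ht.2.le⟩
  exact ⟨(Lb_deriv hb (hmem t ht')).differentiableAt, (Lb_re_deriv hb (hmem t ht') (hre t ht)).le⟩

theorem Lb_expand {b : ℝ} (hb : 1 ≤ b) {z w : ℂ} (hz : z ∈ RS (2 * Real.pi / b))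
    (hw1 : 0 ≤ w.re) (hw2 : |w.im| < 2 * Real.pi / b) :
    1 / 2 * ‖z - w‖ ≤ ‖Lb b z - Lb b w‖ := by
  have h1 := Lb_seg hb hz hw1 hw2
  have h2 : (conj (z - w) * (Lb b z - Lb b w)).re ≤ ‖z - w‖ * ‖Lb b z - Lb b w‖ := by
    refine (Complex.re_le_norm _).trans ?_
    rw [norm_mul, Complex.norm_conj]
  rcases eq_or_lt_of_le (norm_nonneg (z - w)) with h3 | h3
  · rw [← h3]; simp
  · have h4 : ‖z - w‖ * (1 / 2 * ‖z - w‖) ≤ ‖z - w‖ * ‖Lb b z - Lb b w‖ := by nlinarith
    exact le_of_mul_le_mul_left h4 h3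

theorem Lb_real {b : ℝ} (hb : 1 ≤ b) (x : ℝ) : (Lb b x).im = 0 := by
  have h : |(x : ℂ).im| < 2 * Real.pi / b := by
    have := Real.pi_pos
    simp only [Complex.ofReal_im, abs_zero]
    positivity
  have h1 := Lb_conj hb h
  rw [Complex.conj_ofReal] at h1
  have h2 := congrArg Complex.im h1
  rw [Complex.conj_im] at h2
  linarith

theorem Lb_im {b : ℝ} (hb : 1 ≤ b) {τ : ℂ} (hτ : τ ∈ RS (2 * Real.pi / b)) :
    1 / 2 * τ.im ^ 2 ≤ τ.im * (Lb b τ).im := by
  have hw2 : |((τ.re : ℝ) : ℂ).im| < 2 * Real.pi / b := by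
    have := Real.pi_pos
    simp only [Complex.ofReal_im, abs_zero]
    positivity
  have h1 := Lb_seg hb hτ (w := (τ.re : ℂ)) (by simpa using hτ.1.le) hw2
  have h2 : τ - (τ.re : ℂ) = ⟨0, τ.im⟩ := by
    apply Complex.ext <;> simp
  rw [h2] at h1
  have h3 : ‖(⟨0, τ.im⟩ : ℂ)‖ ^ 2 = τ.im ^ 2 := by
    rw [← Complex.normSq_eq_norm_sq, Complex.normSq_apply]; simp; ring
  rw [h3] at h1
  have h4 : (conj (⟨0, τ.im⟩ : ℂ) * (Lb b τ - Lb b (τ.re : ℂ))).re = τ.im * (Lb b τ).im := by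
    rw [Complex.mul_re]
    simp only [Complex.conj_re, Complex.conj_im, Complex.sub_im, Lb_real hb]
    ring
  rw [h4] at h1
  exact h1

theorem Lb_re_gt {b : ℝ} (hb : 1 ≤ b) {x : ℝ} (hx : 0 < x) : x / 2 ≤ (Lb b x).re := by
  have hpi : 0 < 2 * Real.pi / b := by
    have := Real.pi_pos
    positivity
  have h1 := Lb_seg hb (z := (x : ℂ)) (w := 0) ⟨by simpa using hx, by simpa using hpi⟩ (by simp)
    (by simpa using hpi)
  rw [sub_zero, Lb_zero, sub_zero, Complex.conj_ofReal, Complex.re_ofReal_mul, Complex.norm_real,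
    Real.norm_eq_abs, sq_abs] at h1
  have h2 : x * (x / 2) ≤ x * (Lb b x).re := by nlinarith
  exact le_of_mul_le_mul_left h2 hx

/-- `L` covers the right half strip of width `π / b` -/
theorem Lb_surj {b : ℝ} (hb : 1 ≤ b) :
    RS (Real.pi / b) ⊆ Lb b '' RS (2 * Real.pi / b) := by
  have hb0 : 0 < b := by linarith
  have hpi := Real.pi_pos
  have hq : 2 * Real.pi / b = 2 * (Real.pi / b) := by ring
  have hU := isOpen_RS (2 * Real.pi / b)
  have hdiff : DifferentiableOn ℂ (Lb b) (RS (2 * Real.pi / b)) := fun z hz =>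
    (Lb_deriv hb hz.2).differentiableAt.differentiableWithinAt
  have hd0 : ∀ z ∈ RS (2 * Real.pi / b), deriv (Lb b) z ≠ 0 := by
    intro z hz h0
    have := Lb_re_deriv hb hz.2 hz.1
    rw [h0] at this
    simp at this
    linarith
  have hopen := (exists_inv hU hdiff hd0 (k := 1 / 2) (by norm_num)
    (fun z hz w hw => Lb_expand hb hz hw.1.le hw.2)).1
  refine ((convex_RS _).isPreconnected).subset_of_closure_inter_subset hopen ?_ ?_
  · have h1 : ((1 : ℝ) : ℂ) ∈ RS (2 * Real.pi / b) := ⟨by simp, by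
      simp only [Complex.ofReal_im, abs_zero]; positivity⟩
    refine ⟨Lb b ((1 : ℝ) : ℂ), ⟨?_, ?_⟩, mem_image_of_mem _ h1⟩
    · have := Lb_re_gt hb (x := 1) one_pos
      linarith
    · rw [Lb_real hb, abs_zero]; positivity
  · rintro v ⟨hv1, hv2⟩
    obtain ⟨u, hu1, hu2⟩ := mem_closure_iff_seq_limit.1 hv1
    choose τ hτ1 hτ2 using hu1
    have hcau : CauchySeq τ := by
      rw [Metric.cauchySeq_iff]
      intro ε hε
      obtain ⟨N, hN⟩ := Metric.cauchySeq_iff.1 hu2.cauchySeq (ε / 2) (by linarith)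
      refine ⟨N, fun m hm n hn => ?_⟩
      have h1 := hN m hm n hn
      have h2 := Lb_expand hb (hτ1 m) (hτ1 n).1.le (hτ1 n).2
      rw [hτ2, hτ2] at h2
      rw [dist_eq_norm] at h1 ⊢
      linarith
    obtain ⟨t, ht⟩ := cauchySeq_tendsto_of_complete hcau
    have hre : 0 ≤ t.re := by
      refine ge_of_tendsto ((Complex.continuous_re.tendsto t).comp ht) ?_
      exact Eventually.of_forall fun n => (hτ1 n).1.le
    have him : |t.im| ≤ 2 * |v.im| := by
      have h1 : Tendsto (fun n => |(τ n).im|) atTop (𝓝 |t.im|) :=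
        (Complex.continuous_im.abs.tendsto t).comp ht
      have h2 : Tendsto (fun n => 2 * |(u n).im|) atTop (𝓝 (2 * |v.im|)) :=
        ((Complex.continuous_im.abs.tendsto v).comp hu2).const_mul 2
      refine le_of_tendsto_of_tendsto' h1 h2 fun n => ?_
      have h3 := Lb_im hb (hτ1 n)
      rw [hτ2] at h3
      have h4 : (τ n).im * (u n).im ≤ |(τ n).im| * |(u n).im| := by
        rw [← abs_mul]; exact le_abs_self _
      rcases eq_or_lt_of_le (abs_nonneg (τ n).im) with h5 | h5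
      · rw [← h5]; positivity
      · have h6 : |(τ n).im| * (1 / 2 * |(τ n).im|) ≤ |(τ n).im| * |(u n).im| := by
          have := sq_abs (τ n).im
          nlinarith
        have h7 := le_of_mul_le_mul_left h6 h5
        linarith
    have him' : |t.im| < 2 * Real.pi / b := by
      have := hv2.2
      rw [hq]; linarith
    have hLt : Lb b t = v := by
      have h1 : Tendsto (fun n => Lb b (τ n)) atTop (𝓝 (Lb b t)) :=
        ((Lb_deriv hb him').continuousAt.tendsto).comp ht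
      have h2 : (fun n => Lb b (τ n)) = u := funext hτ2
      rw [h2] at h1
      exact tendsto_nhds_unique h1 hu2
    refine ⟨t, ⟨?_, him'⟩, hLt⟩
    rcases eq_or_lt_of_le hre with h0 | h0
    · exfalso
      rcases eq_or_ne t 0 with ht0 | ht0
      · rw [ht0, Lb_zero] at hLt
        have := hv2.1
        rw [← hLt] at this
        simp at this
      · have h1 := Lb_re_lt hb him' hre ht0
        rw [hLt, ← h0] at h1
        have := hv2.1
        linarith
    · exact h0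

end Vale.Agent.P097.H990
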