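import Vale.Agent.P097.H402.Rat.Defs
import Vale.Agent.P097.H990.Core
import Vale.Agent.P097.H990.Inv

/-! # P097 / RAT-K1: no pencil law of type B for `σ ≥ -1`, `σ ≠ 0`.

Owner: helper990. -/

set_option linter.all false

open Complex Metric Filter Topology Set
open scoped ComplexConjugate

namespace Vale.Agent.P097.H990

open Vale.Agent.P097.H402.Rat (Ex aB LawB PK1)

theorem Ex_eq : Ex = E1 := by
  funext z
  rw [Ex]
  split_ifs with h
  · rw [h, E1_zero]
  · rw [E1_of_ne h]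

theorem aB_eq {s : ℝ} (τ : ℂ) :
    aB s τ = E1 (((s + 2 : ℝ) : ℂ) * τ) / E1 (((s + 2 - 1 : ℝ) : ℂ) * τ) := by
  rw [aB, Ex_eq]
  push_cast
  rw [show ((s : ℂ) + 2 - 1) = s + 1 by ring]

theorem aB_exp {s : ℝ} (hs : -1 ≤ s) {τ : ℂ} (h : |τ.im| < 2 * Real.pi / (s + 2)) :
    aB s τ = Complex.exp (Lb (s + 2) τ) := by
  rw [aB_eq, exp_Lb (by linarith) h]

/-- `log (2 - e ^ ω)` -/
noncomputable def kap (ω : ℂ) : ℂ := Complex.log (2 - Complex.exp ω)

theorem two_sub_re {Y : ℝ} {ω : ℂ} (hω : ω ∈ HS Y) : 1 < (2 - Complex.exp ω).re := by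
  rw [Complex.sub_re, Complex.exp_re]
  have h1 : Real.exp ω.re < 1 := ((Real.exp_lt_exp.2 hω.1).trans_eq Real.exp_zero)
  have h2 := Real.cos_le_one ω.im
  have h3 := Real.exp_pos ω.re
  have h4 : Real.exp ω.re * Real.cos ω.im ≤ Real.exp ω.re := by nlinarith
  have h5 : (2 : ℂ).re = 2 := rfl
  rw [h5]
  linarith

theorem exp_kap {Y : ℝ} {ω : ℂ} (hω : ω ∈ HS Y) : Complex.exp (kap ω) = 2 - Complex.exp ω := by
  have h1 := two_sub_re hω
  exact Complex.exp_log (by intro h; rw [h] at h1; simp at h1; linarith)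

theorem kap_diff {Y : ℝ} : DifferentiableOn ℂ kap (HS Y) := by
  intro ω hω
  have h1 := two_sub_re hω
  have h2 : (2 - Complex.exp ω) ∈ slitPlane := Or.inl (by linarith)
  exact ((((differentiableAt_const _).sub Complex.differentiableAt_exp)).clog h2).differentiableWithinAt

theorem kap_mem {Y : ℝ} (hY : Y ≤ Real.pi) {ω : ℂ} (hω : ω ∈ HS Y) : kap ω ∈ RS Y := by
  have h1 := two_sub_re hω
  have hlow : 1 < ‖2 - Complex.exp ω‖ := h1.trans_le (Complex.re_le_norm _)
  refine ⟨?_, ?_⟩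
  · rw [kap, Complex.log_re]
    exact Real.log_pos hlow
  · rw [kap, Complex.log_im]
    set w : ℂ := 2 - Complex.exp ω with hw
    have ha : |w.arg| < Real.pi / 2 := Complex.abs_arg_lt_pi_div_two_iff.2 (Or.inl (by linarith))
    have hy : |ω.im| < Y := hω.2
    rcases lt_or_ge |ω.im| (Real.pi / 2) with h2 | h2
    · refine lt_of_le_of_lt ?_ hy
      by_contra hcon
      push Not at hcon
      have hpi := Real.pi_pos
      have h3 : Real.tan |ω.im| < Real.tan |w.arg| :=
        Real.strictMonoOn_tan ⟨by linarith [abs_nonneg ω.im], h2⟩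
          ⟨by linarith [abs_nonneg w.arg], ha⟩ hcon
      have h4 : Real.tan |w.arg| ≤ |Real.tan w.arg| := by
        rcases abs_cases w.arg with ⟨h, _⟩ | ⟨h, _⟩
        · rw [h]; exact le_abs_self _
        · rw [h, Real.tan_neg]; exact neg_le_abs _
      have h5 := h3.trans_le h4
      rw [Complex.tan_arg, abs_div, abs_of_pos (by linarith : 0 < w.re), Real.tan_eq_sin_div_cos,
        Real.cos_abs] at h5
      have hc : 0 < Real.cos ω.im := by
        rw [← Real.cos_abs]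
        exact Real.cos_pos_of_mem_Ioo ⟨by linarith [abs_nonneg ω.im], h2⟩
      have hs : 0 ≤ Real.sin |ω.im| :=
        Real.sin_nonneg_of_nonneg_of_le_pi (abs_nonneg _) (by linarith)
      have hwim : |w.im| = Real.exp ω.re * Real.sin |ω.im| := by
        have e1 : w.im = -(Real.exp ω.re * Real.sin ω.im) := by
          rw [hw, Complex.sub_im, Complex.exp_im]
          have : (2 : ℂ).im = 0 := rfl
          rw [this]; ring
        rw [e1, abs_neg, abs_mul, abs_of_pos (Real.exp_pos _)]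
        congr 1
        rcases abs_cases ω.im with ⟨h, h'⟩ | ⟨h, h'⟩
        · rw [h] at hs ⊢; exact abs_of_nonneg hs
        · rw [h, Real.sin_neg] at hs ⊢
          rw [← abs_neg]; exact abs_of_nonneg hs
      have hwre : w.re = 2 - Real.exp ω.re * Real.cos ω.im := by
        rw [hw, Complex.sub_re, Complex.exp_re]
        have : (2 : ℂ).re = 2 := rfl
        rw [this]
      rw [hwim, div_lt_div_iff₀ hc (by linarith), hwre] at h5
      have h6 : Real.exp ω.re < 1 := ((Real.exp_lt_exp.2 hω.1).trans_eq Real.exp_zero)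
      have h7 := Real.cos_le_one ω.im
      have h8 : Real.exp ω.re * Real.cos ω.im ≤ 1 := by
        have := Real.exp_pos ω.re
        nlinarith
      have h9 : 0 ≤ Real.sin |ω.im| * (2 - 2 * (Real.exp ω.re * Real.cos ω.im)) :=
        mul_nonneg hs (by linarith)
      nlinarith
    · exact ha.trans_le (h2.trans hy.le)

theorem ofReal_of_conj_eq {τ : ℂ} (h : conj τ = τ) : τ = (τ.re : ℂ) :=
  (Complex.conj_eq_iff_re.1 h).symm

/-- the main theorem, hypotheses as in `LawB` -/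
theorem k1 (s : ℝ) (hs : -1 ≤ s) (hs0 : s ≠ 0) (f : ℂ → ℂ) : ¬ LawB s f := by
  intro hf
  set b : ℝ := s + 2 with hbdef
  have hb : 1 ≤ b := by linarith
  have hb0 : 0 < b := by linarith
  have hpi := Real.pi_pos
  set q : ℝ := 2 * Real.pi / b with hq
  have hq0 : 0 < q := by positivity
  set Y : ℝ := Real.pi / b with hY
  have hY0 : 0 < Y := by positivity
  have hqY : q = 2 * Y := by rw [hq, hY]; ring
  have hYpi : Y ≤ Real.pi := by
    rw [hY]; exact div_le_self hpi.le hb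
  -- the inverse of `L`
  have hdiff : DifferentiableOn ℂ (Lb b) (RS q) := fun z hz =>
    (Lb_deriv hb hz.2).differentiableAt.differentiableWithinAt
  have hd0 : ∀ z ∈ RS q, deriv (Lb b) z ≠ 0 := by
    intro z hz h0
    have := Lb_re_deriv hb hz.2 hz.1
    rw [h0] at this
    simp at this
    linarith
  obtain ⟨hopen, σ, hσd, hσ1, hσ2⟩ := exists_inv (isOpen_RS q) hdiff hd0 (k := 1 / 2)
    (by norm_num) (fun z hz w hw => Lb_expand hb hz hw.1.le hw.2)
  have hsurj : RS Y ⊆ Lb b '' RS q := Lb_surj hb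
  have hσm : ∀ v ∈ RS Y, σ v ∈ RS q := fun v hv => (hσ1 v (hsurj hv)).1
  have hσL : ∀ v ∈ RS Y, Lb b (σ v) = v := fun v hv => (hσ1 v (hsurj hv)).2
  have hσdY : DifferentiableOn ℂ σ (RS Y) := hσd.mono hsurj
  have hsub : ∀ v ∈ RS Y, v - σ v ∈ HS Y := by
    intro v hv
    have h1 := hσm v hv
    have h2 := hσL v hv
    have hne : σ v ≠ 0 := by intro h0; have := h1.1; rw [h0] at this; simp at this
    refine ⟨?_, ?_⟩
    · have h3 := Lb_re_lt hb h1.2 h1.1.le hne
      rw [h2] at h3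
      rw [Complex.sub_re]; linarith
    · have h3 := Lb_im hb h1
      rw [h2] at h3
      have h4 : |v.im - (σ v).im| ≤ |v.im| := sq_le_sq.1 (by nlinarith)
      rw [Complex.sub_im]
      exact h4.trans_lt hv.2
  have hσreal : ∀ v : ℝ, 0 < v → ∃ t : ℝ, 0 < t ∧ σ v = t ∧ t / 2 ≤ v := by
    intro v hv
    have hvm : (v : ℂ) ∈ RS Y := ⟨by simpa using hv, by simpa using hY0⟩
    have h1 := hσm _ hvm
    have h2 := hσL _ hvm
    have h1' : conj (σ v) ∈ RS q := ⟨by simpa using h1.1, by simpa using h1.2⟩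
    have h3 : Lb b (conj (σ v)) = v := by
      rw [Lb_conj hb h1.2, h2, Complex.conj_ofReal]
    have h4 : conj (σ v) = σ v := by
      rw [← hσ2 _ h1', h3]
    have h5 := ofReal_of_conj_eq h4
    refine ⟨(σ v).re, h1.1, h5, ?_⟩
    have h6 := Lb_re_gt hb h1.1
    rw [← h5, h2] at h6
    simpa using h6
  -- the parabolic map
  set T : ℂ → ℂ := fun ω => kap ω - σ (kap ω) with hT
  set p : ℂ → ℂ := fun ω => Complex.exp ((s + 3) * σ (kap ω)) with hp
  have hTd : DifferentiableOn ℂ T (HS Y) :=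
    kap_diff.sub (hσdY.comp kap_diff fun ω hω => kap_mem hYpi hω)
  have hpd : DifferentiableOn ℂ p (HS Y) :=
    ((hσdY.comp kap_diff fun ω hω => kap_mem hYpi hω).const_mul _).cexp
  have hTm : MapsTo T (HS Y) (HS Y) := fun ω hω => hsub _ (kap_mem hYpi hω)
  have hreal : ∀ x : ℝ, x < 0 → ∃ x' : ℝ, T x = x' ∧ x < x' := by
    intro x hx
    have hxm : (x : ℂ) ∈ HS Y := ofReal_mem_HS hY0 hx
    have hex : Real.exp x < 1 := ((Real.exp_lt_exp.2 hx).trans_eq Real.exp_zero)
    set v : ℝ := Real.log (2 - Real.exp x) with hv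
    have hv0 : 0 < v := Real.log_pos (by linarith)
    have hk : kap x = v := by
      rw [kap, hv, Complex.ofReal_log (by linarith)]
      push_cast; rfl
    obtain ⟨t, ht0, ht1, ht2⟩ := hσreal v hv0
    refine ⟨v - t, ?_, ?_⟩
    · simp only [hT]
      rw [hk, ht1]; push_cast; rfl
    · have h1 : Real.exp v = 2 - Real.exp x := Real.exp_log (by linarith)
      have h2 : Real.exp (t / 2) ≤ Real.exp v := Real.exp_le_exp.2 ht2
      have h3 : Real.exp (-(t / 2)) ≤ Real.exp (v - t) := Real.exp_le_exp.2 (by linarith)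
      have h4 : 1 < Real.cosh (t / 2) := Real.one_lt_cosh.2 (by linarith)
      rw [Real.cosh_eq] at h4
      have h5 : Real.exp x < Real.exp (v - t) := by linarith
      exact Real.exp_lt_exp.1 h5
  -- the germ
  set f0 : ℂ → ℂ := fun ω => f (Complex.exp ω) with hf0
  have hexp0 : Complex.exp 0 = 1 := Complex.exp_zero
  have hf0a : AnalyticAt ℂ f0 0 := by
    have h1 : AnalyticAt ℂ f (Complex.exp 0) := by rw [hexp0]; exact hf.an
    exact h1.comp (Complex.differentiable_exp.analyticAt 0)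
  have hf0ne : ¬ ∀ᶠ z in 𝓝 (0 : ℂ), f0 z = 0 := by
    intro h
    apply hf.ne
    have h1 := (Complex.hasStrictDerivAt_exp 0).map_nhds_eq (Complex.exp_ne_zero 0)
    rw [hexp0] at h1
    rw [← h1, Filter.eventually_map]
    exact h
  have hkap0 : ContinuousAt kap 0 := by
    have : (2 - Complex.exp 0 : ℂ) ∈ slitPlane := by rw [hexp0]; left; norm_num
    exact ((((differentiableAt_const _).sub Complex.differentiableAt_exp)).clog this).continuousAt
  have hkap00 : kap 0 = 0 := by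
    rw [kap, hexp0]; norm_num
  have hσto : Tendsto (fun ω => σ (kap ω)) (𝓝[HS Y] 0) (𝓝 0) := by
    have h1 : Tendsto (fun ω => 2 * ‖kap ω‖) (𝓝[HS Y] 0) (𝓝 0) := by
      have h2 : Tendsto kap (𝓝[HS Y] 0) (𝓝 0) := by
        have := hkap0.tendsto
        rw [hkap00] at this
        exact this.mono_left nhdsWithin_le_nhds
      simpa using (h2.norm).const_mul 2
    refine squeeze_zero_norm' ?_ h1
    filter_upwards [self_mem_nhdsWithin] with ω hω
    have h3 := kap_mem hYpi hω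
    have h4 := Lb_expand hb (hσm _ h3) (w := 0) (by simp) (by simpa using hq0)
    rw [hσL _ h3, Lb_zero, sub_zero, sub_zero] at h4
    linarith
  have hlaw : ∀ᶠ ω in 𝓝[HS Y] 0, f0 ω = p ω * f0 (T ω) := by
    have h1 := hσto.eventually hf.chord
    have h2 : ∀ᶠ ω in 𝓝[HS Y] (0 : ℂ), f (2 - Complex.exp ω) = -f (Complex.exp ω) := by
      have h3 : Tendsto (fun ω : ℂ => Complex.exp ω) (𝓝[HS Y] 0) (𝓝 1) := by
        have := (Complex.continuous_exp.tendsto 0)
        rw [hexp0] at this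
        exact this.mono_left nhdsWithin_le_nhds
      exact h3.eventually hf.refl
    filter_upwards [h1, h2, self_mem_nhdsWithin] with ω h3 h4 hω
    have h5 := kap_mem hYpi hω
    have h6 := hσm _ h5
    have h7 := hσL _ h5
    have h8 : |(-σ (kap ω)).im| < 2 * Real.pi / (s + 2) := by
      rw [Complex.neg_im, abs_neg]; exact h6.2
    have e1 : aB s (σ (kap ω)) = 2 - Complex.exp ω := by
      rw [aB_exp hs h6.2, h7, exp_kap hω]
    have e2 : aB s (-σ (kap ω)) = Complex.exp (T ω) := by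
      rw [aB_exp hs h8, Lb_neg hb h6.2, h7]
    rw [e1, e2, h4] at h3
    simp only [hf0, hp]
    linear_combination -h3
  obtain ⟨F, hFd, hFT, hFne, hFf⟩ := core hY0 hTd hpd hTm (fun ω _ => Complex.exp_ne_zero _) hreal
    hf0a hf0ne hlaw
  have hHSo := isOpen_HS Y
  -- the imaginary axis
  have hax : ∀ y ∈ Ioo (0 : ℝ) q, Lb b ((y : ℂ) * I) ∈ HS Y ∧ Lb b (-((y : ℂ) * I)) ∈ HS Y := by
    intro y hy
    have him : ((y : ℂ) * I).im = y := by simp
    have hre : ((y : ℂ) * I).re = 0 := by simp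
    have hyq : |((y : ℂ) * I).im| < 2 * Real.pi / b := by
      rw [him, abs_of_pos hy.1]; exact hy.2
    have hne : (y : ℂ) * I ≠ 0 := mul_ne_zero (by exact_mod_cast hy.1.ne') I_ne_zero
    have h1 := Lb_re_lt hb hyq (by rw [hre]) hne
    rw [hre] at h1
    have h2 : conj ((y : ℂ) * I) = -((y : ℂ) * I) := by simp
    have h3 := Lb_conj hb hyq
    have h4 := Lb_neg hb hyq
    rw [h2] at h3
    have h5 : (Lb b ((y : ℂ) * I)).im = y / 2 := by
      have h6 := congrArg Complex.im (h3.symm.trans h4)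
      rw [Complex.conj_im, Complex.sub_im, him] at h6
      linarith
    have h7 : |(Lb b ((y : ℂ) * I)).im| < Y := by
      rw [h5, abs_of_pos (by linarith [hy.1])]
      have := hy.2
      linarith
    refine ⟨⟨h1, h7⟩, ?_⟩
    rw [h3]
    exact ⟨by rw [Complex.conj_re]; exact h1, by rw [Complex.conj_im, abs_neg]; exact h7⟩
  set Ψ : ℂ → ℂ := fun τ => F (Lb b τ) + Complex.exp ((s + 3) * τ) * F (Lb b (-τ)) with hΨ
  set U : Set ℂ := (fun y : ℝ => (y : ℂ) * I) '' Ioo 0 q with hU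
  have hUpre : IsPreconnected U :=
    isPreconnected_Ioo.image _ (by fun_prop)
  have hLan : ∀ τ : ℂ, |τ.im| < 2 * Real.pi / b → AnalyticAt ℂ (Lb b) τ := by
    intro τ hτ
    have ho : IsOpen {τ : ℂ | |τ.im| < 2 * Real.pi / b} :=
      isOpen_lt (Complex.continuous_im.abs) continuous_const
    have hd : DifferentiableOn ℂ (Lb b) {τ : ℂ | |τ.im| < 2 * Real.pi / b} := fun z hz =>
      (Lb_deriv hb hz).differentiableAt.differentiableWithinAt
    exact hd.analyticAt (ho.mem_nhds hτ)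
  have hUim : ∀ y ∈ Ioo (0 : ℝ) q, |((y : ℂ) * I).im| < 2 * Real.pi / b := by
    intro y hy
    have him : ((y : ℂ) * I).im = y := by simp
    rw [him, abs_of_pos hy.1]; exact hy.2
  have hΨa : AnalyticOnNhd ℂ Ψ U := by
    rintro _ ⟨y, hy, rfl⟩
    have h1 := hax y hy
    have h2 := hUim y hy
    have h2' : |(-((y : ℂ) * I)).im| < 2 * Real.pi / b := by
      rw [Complex.neg_im, abs_neg]; exact h2
    have h3 : AnalyticAt ℂ F (Lb b ((y : ℂ) * I)) := hFd.analyticAt (hHSo.mem_nhds h1.1)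
    have h4 : AnalyticAt ℂ F (Lb b (-((y : ℂ) * I))) := hFd.analyticAt (hHSo.mem_nhds h1.2)
    have h5 : AnalyticAt ℂ (fun τ => F (Lb b τ)) ((y : ℂ) * I) := h3.comp (hLan _ h2)
    have h6 : AnalyticAt ℂ (fun τ => Lb b (-τ)) ((y : ℂ) * I) :=
      AnalyticAt.comp (g := Lb b) (f := fun τ => -τ) (hLan _ h2') analyticAt_id.neg
    have h7 : AnalyticAt ℂ (fun τ => F (Lb b (-τ))) ((y : ℂ) * I) :=
      AnalyticAt.comp (g := F) (f := fun τ => Lb b (-τ)) h4 h6
    have h8 : AnalyticAt ℂ (fun τ : ℂ => Complex.exp ((s + 3) * τ)) ((y : ℂ) * I) := by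
      have : Differentiable ℂ (fun τ : ℂ => Complex.exp ((s + 3) * τ)) := by fun_prop
      exact this.analyticAt _
    exact h5.add (h8.mul h7)
  have hLc0 : ContinuousAt (Lb b) 0 := (Lb_deriv hb (by simpa using hq0)).continuousAt
  obtain ⟨δ, hδ, hδΨ⟩ : ∃ δ > 0, ∀ τ : ℂ, ‖τ‖ < δ → Lb b τ ∈ HS Y → Lb b (-τ) ∈ HS Y → Ψ τ = 0 := by
    rw [eventually_nhdsWithin_iff] at hFf
    have h1 : ∀ᶠ τ in 𝓝 (0 : ℂ), (Lb b τ ∈ HS Y → F (Lb b τ) = f0 (Lb b τ)) := by
      have h2 := hLc0.tendsto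
      rw [Lb_zero] at h2
      exact h2.eventually hFf
    have h3 : ∀ᶠ τ in 𝓝 (0 : ℂ), (Lb b (-τ) ∈ HS Y → F (Lb b (-τ)) = f0 (Lb b (-τ))) := by
      have h2 : Tendsto (fun τ : ℂ => -τ) (𝓝 0) (𝓝 0) := by
        have := (continuous_neg (G := ℂ)).tendsto 0
        simpa using this
      exact h2.eventually h1
    have h4 : ∀ᶠ τ in 𝓝 (0 : ℂ), |τ.im| < q := by
      have : IsOpen {τ : ℂ | |τ.im| < q} := isOpen_lt (Complex.continuous_im.abs) continuous_const
      exact this.mem_nhds (by simpa using hq0)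
    have h5 := (h1.and h3).and (h4.and hf.chord)
    rw [Metric.eventually_nhds_iff] at h5
    obtain ⟨δ, hδ, h⟩ := h5
    refine ⟨δ, hδ, fun τ hτ m1 m2 => ?_⟩
    obtain ⟨⟨g1, g2⟩, g3, g4⟩ := h (by simpa using hτ)
    have g3' : |(-τ).im| < 2 * Real.pi / (s + 2) := by
      rw [Complex.neg_im, abs_neg]; exact g3
    simp only [hΨ]
    rw [g1 m1, g2 m2]
    simp only [hf0]
    rw [← aB_exp hs g3, ← aB_exp hs g3', g4]
    ring
  have hΨ0 : EqOn Ψ 0 U := by
    set y₁ : ℝ := min δ q / 2 with hy₁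
    have hmin : 0 < min δ q := lt_min hδ hq0
    have hy1 : y₁ ∈ Ioo (0 : ℝ) q :=
      ⟨by rw [hy₁]; linarith, by rw [hy₁]; linarith [min_le_right δ q]⟩
    have hmemU : (y₁ : ℂ) * I ∈ U := mem_image_of_mem _ hy1
    refine hΨa.eqOn_zero_of_preconnected_of_eventuallyEq_zero hUpre hmemU ?_
    have h1 := hax y₁ hy1
    have h2 := hUim y₁ hy1
    have h2' : |(-((y₁ : ℂ) * I)).im| < 2 * Real.pi / b := by
      rw [Complex.neg_im, abs_neg]; exact h2
    have h3 : ∀ᶠ τ in 𝓝 ((y₁ : ℂ) * I), Lb b τ ∈ HS Y :=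
      (hLan _ h2).continuousAt.tendsto.eventually (hHSo.mem_nhds h1.1)
    have h4 : ∀ᶠ τ in 𝓝 ((y₁ : ℂ) * I), Lb b (-τ) ∈ HS Y := by
      have h5 : ContinuousAt (fun τ => Lb b (-τ)) ((y₁ : ℂ) * I) :=
        ContinuousAt.comp (g := Lb b) (f := fun τ => -τ) (hLan _ h2').continuousAt
          continuousAt_id.neg
      exact h5.tendsto.eventually (hHSo.mem_nhds h1.2)
    have h5 : ∀ᶠ τ in 𝓝 ((y₁ : ℂ) * I), ‖τ‖ < δ := by
      have : IsOpen {τ : ℂ | ‖τ‖ < δ} := isOpen_lt continuous_norm continuous_const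
      refine this.mem_nhds ?_
      show ‖(y₁ : ℂ) * I‖ < δ
      rw [norm_mul, Complex.norm_I, mul_one, Complex.norm_real, Real.norm_eq_abs,
        abs_of_pos hy1.1, hy₁]
      linarith [min_le_left δ q]
    filter_upwards [h3, h4, h5] with τ g1 g2 g3
    exact hδΨ τ g3 g1 g2
  -- the corner
  set v0 : ℂ := ((Real.log 2 : ℝ) : ℂ) with hv0
  have hlog2 : 0 < Real.log 2 := Real.log_pos (by norm_num)
  have hv0m : v0 ∈ RS Y :=
    ⟨by rw [hv0, Complex.ofReal_re]; exact hlog2, by rw [hv0, Complex.ofReal_im, abs_zero]; exact hY0⟩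
  set Φ : ℂ → ℂ := fun v => Complex.exp ((s + 3) * σ v) * F (v - σ v) with hΦ
  have hσc : ContinuousAt σ v0 :=
    (hσdY.differentiableAt ((isOpen_RS Y).mem_nhds hv0m)).continuousAt
  have hΦc : ContinuousAt Φ v0 := by
    have h1 : ContinuousAt F (v0 - σ v0) :=
      (hFd.differentiableAt (hHSo.mem_nhds (hsub v0 hv0m))).continuousAt
    have h2 : ContinuousAt (fun v => v - σ v) v0 := continuousAt_id.sub hσc
    have h3 : ContinuousAt (fun v => F (v - σ v)) v0 :=
      ContinuousAt.comp (g := F) (f := fun v => v - σ v) h1 h2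
    have h4 : ContinuousAt (fun v => Complex.exp ((s + 3) * σ v)) v0 :=
      (continuousAt_const.mul hσc).cexp
    exact h4.mul h3
  have hΦ0 : Φ v0 ≠ 0 := mul_ne_zero (Complex.exp_ne_zero _) (hFne _ (hsub v0 hv0m))
  have hFΦ : ∀ ω ∈ HS Y, F ω = Φ (kap ω) := by
    intro ω hω
    rw [hFT ω hω]
  have hqI : E1 (((b : ℝ) : ℂ) * ((q : ℂ) * I)) = 0 := by
    have h1 : ((b : ℝ) : ℂ) * ((q : ℂ) * I) = 2 * Real.pi * I := by
      rw [hq]; push_cast
      have : (b : ℂ) ≠ 0 := by exact_mod_cast hb0.ne'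
      field_simp
    rw [h1]
    have h2 : (2 * Real.pi * I : ℂ) ≠ 0 := Complex.two_pi_I_ne_zero
    rw [E1_of_ne h2, Complex.exp_two_pi_mul_I, sub_self, zero_div]
  have hcorner : ∀ ε : ℝ, ε = 1 ∨ ε = -1 →
      Tendsto (fun y : ℝ => F (Lb b ((ε : ℂ) * ((y : ℂ) * I)))) (𝓝[<] q) (𝓝 (Φ v0)) := by
    intro ε hε
    have habs : |ε| = 1 := by rcases hε with h | h <;> simp [h]
    have hε2 : ((ε : ℝ) : ℂ) = 1 ∨ ((ε : ℝ) : ℂ) = -1 := by
      rcases hε with h | h <;> simp [h]
    -- `E1` at the corner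
    have hE0 : E1 (((b : ℝ) : ℂ) * ((ε : ℂ) * ((q : ℂ) * I))) = 0 := by
      rcases hε2 with h | h
      · rw [h, one_mul]; exact hqI
      · rw [h, neg_one_mul, mul_neg, E1_neg, hqI, mul_zero]
    have hden : E1 (((b - 1 : ℝ) : ℂ) * ((ε : ℂ) * ((q : ℂ) * I))) ≠ 0 := by
      apply E1_ne_zero
      show |(((b - 1 : ℝ) : ℂ) * ((ε : ℂ) * ((q : ℂ) * I))).im| < 2 * Real.pi
      rw [Complex.im_ofReal_mul, Complex.im_ofReal_mul, abs_mul, abs_mul, habs,
        abs_of_nonneg (by linarith : 0 ≤ b - 1)]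
      have : ((q : ℂ) * I).im = q := by simp
      rw [this, abs_of_pos hq0, one_mul]
      have h1 : b * q = 2 * Real.pi := by rw [hq]; field_simp
      nlinarith
    have hcont : ContinuousAt (fun y : ℝ => E1 (((b : ℝ) : ℂ) * ((ε : ℂ) * ((y : ℂ) * I))) /
        E1 (((b - 1 : ℝ) : ℂ) * ((ε : ℂ) * ((y : ℂ) * I)))) q := by
      have hc := diff_E1.continuous
      refine ContinuousAt.div ?_ ?_ hden
      · exact (hc.comp (by fun_prop : Continuous fun y : ℝ =>
          ((b : ℝ) : ℂ) * ((ε : ℂ) * ((y : ℂ) * I)))).continuousAt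
      · exact (hc.comp (by fun_prop : Continuous fun y : ℝ =>
          ((b - 1 : ℝ) : ℂ) * ((ε : ℂ) * ((y : ℂ) * I)))).continuousAt
    have h1 := hcont.tendsto
    rw [hE0, zero_div] at h1
    have h2 : Tendsto (fun y : ℝ => Complex.log (2 - E1 (((b : ℝ) : ℂ) * ((ε : ℂ) * ((y : ℂ) * I))) /
        E1 (((b - 1 : ℝ) : ℂ) * ((ε : ℂ) * ((y : ℂ) * I))))) (𝓝[<] q) (𝓝 v0) := by
      have h3 : ContinuousAt (fun z : ℂ => Complex.log (2 - z)) 0 := by
        have : (2 - (0 : ℂ)) ∈ slitPlane := by left; norm_num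
        exact (continuousAt_const.sub continuousAt_id).clog this
      have h4 := h3.tendsto
      have h5 : Complex.log (2 - 0) = v0 := by
        rw [hv0, sub_zero, Complex.ofReal_log (by norm_num)]
        norm_num
      rw [h5] at h4
      exact (h4.comp h1).mono_left nhdsWithin_le_nhds
    have h3 := hΦc.tendsto.comp h2
    refine h3.congr' ?_
    have h4 : ∀ᶠ y in 𝓝[<] q, y ∈ Ioo (0 : ℝ) q := Ioo_mem_nhdsLT hq0
    filter_upwards [h4] with y hy
    have h5 : Lb b ((ε : ℂ) * ((y : ℂ) * I)) ∈ HS Y := by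
      rcases hε2 with h | h
      · rw [h, one_mul]; exact (hax y hy).1
      · rw [h, neg_one_mul]; exact (hax y hy).2
    have h6 : |((ε : ℂ) * ((y : ℂ) * I)).im| < 2 * Real.pi / b := by
      rw [Complex.im_ofReal_mul, abs_mul, habs, one_mul]; exact hUim y hy
    simp only [Function.comp]
    rw [hFΦ _ h5, kap, exp_Lb hb h6]
  have hlim : Tendsto (fun y : ℝ => Ψ ((y : ℂ) * I)) (𝓝[<] q)
      (𝓝 (Φ v0 + Complex.exp ((s + 3) * ((q : ℂ) * I)) * Φ v0)) := by
    have h1 := hcorner 1 (Or.inl rfl)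
    have h2 := hcorner (-1) (Or.inr rfl)
    have h3 : Tendsto (fun y : ℝ => Complex.exp ((s + 3) * ((y : ℂ) * I))) (𝓝[<] q)
        (𝓝 (Complex.exp ((s + 3) * ((q : ℂ) * I)))) := by
      have : Continuous (fun y : ℝ => Complex.exp ((s + 3) * ((y : ℂ) * I))) := by fun_prop
      exact (this.tendsto q).mono_left nhdsWithin_le_nhds
    have h4 := h1.add (h3.mul h2)
    refine h4.congr fun y => ?_
    simp only [hΨ]
    simp
  have hlim0 : Φ v0 + Complex.exp ((s + 3) * ((q : ℂ) * I)) * Φ v0 = 0 := by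
    have h1 : Tendsto (fun y : ℝ => Ψ ((y : ℂ) * I)) (𝓝[<] q) (𝓝 0) := by
      refine tendsto_const_nhds.congr' ?_
      have h4 : ∀ᶠ y in 𝓝[<] q, y ∈ Ioo (0 : ℝ) q := Ioo_mem_nhdsLT hq0
      filter_upwards [h4] with y hy
      exact (hΨ0 (mem_image_of_mem _ hy)).symm
    exact tendsto_nhds_unique hlim h1
  have hfin : Complex.exp ((s + 3) * ((q : ℂ) * I)) = -1 := by
    have h1 : (1 + Complex.exp ((s + 3) * ((q : ℂ) * I))) * Φ v0 = 0 := by
      linear_combination hlim0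
    have h2 := (mul_eq_zero.1 h1).resolve_right hΦ0
    linear_combination h2
  have hfin2 : Complex.exp (((2 * Real.pi / b : ℝ) : ℂ) * I) = -1 := by
    have h1 : ((s : ℂ) + 3) * ((q : ℂ) * I) = ((2 * Real.pi / b : ℝ) : ℂ) * I + 2 * Real.pi * I := by
      have hbC : (b : ℂ) ≠ 0 := by exact_mod_cast hb0.ne'
      have h2 : (s : ℂ) + 3 = b + 1 := by rw [hbdef]; push_cast; ring
      rw [h2, hq]
      push_cast
      field_simp
      ring
    rw [h1, Complex.exp_periodic] at hfin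
    exact hfin
  have hre := congrArg Complex.re hfin2
  rw [Complex.exp_ofReal_mul_I_re] at hre
  simp only [Complex.neg_re, Complex.one_re] at hre
  have hx0 : 0 < 2 * Real.pi / b := by positivity
  have hx1 : 2 * Real.pi / b ≤ 2 * Real.pi := div_le_self (by positivity) hb
  have h1 : Real.cos (2 * Real.pi / b - Real.pi) = 1 := by
    rw [Real.cos_sub_pi, hre]; norm_num
  have h2 := (Real.cos_eq_one_iff_of_lt_of_lt (by linarith) (by linarith)).1 h1
  have h3 : 2 * Real.pi / b = Real.pi := by linarith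
  rw [div_eq_iff hb0.ne'] at h3
  have h4 : b = 2 := by
    have : Real.pi * (b - 2) = 0 := by linarith
    rcases mul_eq_zero.1 this with h | h
    · exact absurd h hpi.ne'
    · linarith
  exact hs0 (by linarith)

/-- RAT-K1 -/
theorem pk1 : PK1 := fun s f hs h0 => k1 s hs.le h0 f

end Vale.Agent.P097.H990
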