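import Mathlib

/-! # P097 / RAT-K: elementary inequalities for `z / (e ^ z - 1)` on `|Im z| ≤ 2 π`.

Owner: helper990. -/

set_option linter.all false

open Real

namespace Vale.Agent.P097.H990

theorem mul_cos_lt_sin {u : ℝ} (h0 : 0 < u) (h1 : u < π) : u * Real.cos u < Real.sin u := by
  rcases lt_or_ge u (π / 2) with h | h
  · have h2 := Real.lt_tan h0 h
    have hc : 0 < Real.cos u := Real.cos_pos_of_mem_Ioo ⟨by linarith, h⟩
    rw [Real.tan_eq_sin_div_cos, lt_div_iff₀ hc] at h2
    exact h2
  · have hc : Real.cos u ≤ 0 := Real.cos_nonpos_of_pi_div_two_le_of_le h (by linarith)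
    have hs : 0 < Real.sin u := Real.sin_pos_of_pos_of_lt_pi h0 h1
    nlinarith

/-- `y sin y < 2 (1 - cos y)` for `0 < |y| < 2 π` -/
theorem mul_sin_lt {y : ℝ} (h0 : y ≠ 0) (h1 : |y| < 2 * π) :
    y * Real.sin y < 2 * (1 - Real.cos y) := by
  wlog hy : 0 < y generalizing y
  · have hy' : 0 < -y := by
      rcases lt_or_gt_of_ne h0 with h | h
      · linarith
      · exact absurd h hy
    have := this (y := -y) (by simpa using h0) (by simpa using h1) hy'
    simpa using this
  rw [abs_of_pos hy] at h1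
  have hu : 0 < y / 2 := by linarith
  have h2 := mul_cos_lt_sin hu (by linarith)
  have hs : 0 < Real.sin (y / 2) := Real.sin_pos_of_pos_of_lt_pi hu (by linarith)
  have e1 : Real.sin y = 2 * Real.sin (y / 2) * Real.cos (y / 2) := by
    rw [← Real.sin_two_mul]; congr 1; ring
  have e2 : Real.cos y = 1 - 2 * Real.sin (y / 2) ^ 2 := by
    have h3 : Real.cos y = 2 * Real.cos (y / 2) ^ 2 - 1 := by
      rw [← Real.cos_two_mul]; congr 1; ring
    have h4 := Real.sin_sq_add_cos_sq (y / 2)
    linarith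
  rw [e1, e2]
  nlinarith [mul_lt_mul_of_pos_right h2 hs]

theorem mul_sin_le {y : ℝ} (h1 : |y| < 2 * π) : y * Real.sin y ≤ 2 * (1 - Real.cos y) := by
  rcases eq_or_ne y 0 with rfl | h0
  · simp
  · exact (mul_sin_lt h0 h1).le

theorem sinh_gt {x : ℝ} (hx : 0 < x) : x < Real.sinh x := Real.self_lt_sinh_iff.2 hx

theorem cosh_gt {x : ℝ} (hx : 0 < x) : 1 < Real.cosh x := Real.one_lt_cosh.2 hx.ne'

/-- (I1), real form -/
theorem I1_real {x y : ℝ} (hx : 0 < x) (hy : |y| < 2 * π) :
    0 < (Real.sinh x * Real.cos y - x) * (Real.cosh x * Real.cos y - 1) +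
      (Real.cosh x * Real.sin y - y) * (Real.sinh x * Real.sin y) := by
  have h1 := mul_sin_le hy
  have h2 := sinh_gt hx
  have h3 := cosh_gt hx
  have h4 : Real.cos y ≤ 1 := Real.cos_le_one y
  have h5 := Real.sin_sq_add_cos_sq y
  -- sinh x ≤ x cosh x
  have h6 : Real.sinh x ≤ x * Real.cosh x := by
    have hm : MonotoneOn (fun t => t * Real.cosh t - Real.sinh t) (Set.Ici 0) := by
      refine monotoneOn_of_deriv_nonneg (convex_Ici 0) (by fun_prop) (by fun_prop) ?_
      intro t ht
      rw [interior_Ici, Set.mem_Ioi] at ht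
      have hd : HasDerivAt (fun t => t * Real.cosh t - Real.sinh t)
          ((1 * Real.cosh t + t * Real.sinh t) - Real.cosh t) t :=
        ((hasDerivAt_id t).mul (Real.hasDerivAt_cosh t)).sub (Real.hasDerivAt_sinh t)
      rw [hd.deriv]
      have := mul_nonneg ht.le (Real.sinh_nonneg_iff.2 ht.le)
      linarith
    have := hm (Set.mem_Ici.2 le_rfl) (Set.mem_Ici.2 hx.le) hx.le
    simp at this
    linarith
  have h7 : (Real.sinh x * Real.cos y - x) * (Real.cosh x * Real.cos y - 1) +
      (Real.cosh x * Real.sin y - y) * (Real.sinh x * Real.sin y) =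
      Real.sinh x * Real.cosh x - Real.sinh x * Real.cos y - x * Real.cosh x * Real.cos y + x -
        (y * Real.sin y) * Real.sinh x := by
    linear_combination (Real.sinh x * Real.cosh x) * h5
  rw [h7]
  have hs : 0 < Real.sinh x := by linarith
  have h8 : (y * Real.sin y) * Real.sinh x ≤ 2 * (1 - Real.cos y) * Real.sinh x :=
    mul_le_mul_of_nonneg_right h1 hs.le
  have h9 : 0 < (Real.cosh x - 1) * (Real.sinh x - x) := mul_pos (by linarith) (by linarith)
  have h10 : 0 ≤ (1 - Real.cos y) * (x * Real.cosh x - Real.sinh x) :=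
    mul_nonneg (by linarith) (by linarith)
  nlinarith

/-- (I2), real form -/
theorem I2_real {x y : ℝ} (hx : 0 ≤ x) (hy : |y| < 2 * π) (h0 : x ≠ 0 ∨ y ≠ 0) :
    x * (Real.exp x * Real.cos y - 1) + y * (Real.exp x * Real.sin y) <
      (Real.exp x * Real.cos y - 1) ^ 2 + (Real.exp x * Real.sin y) ^ 2 := by
  have h5 := Real.sin_sq_add_cos_sq y
  have h4 : Real.cos y ≤ 1 := Real.cos_le_one y
  have hE : 0 < Real.exp x := Real.exp_pos x
  have h6 : (Real.exp x * Real.cos y - 1) ^ 2 + (Real.exp x * Real.sin y) ^ 2 =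
      Real.exp x ^ 2 - 2 * Real.exp x * Real.cos y + 1 := by
    linear_combination (Real.exp x ^ 2) * h5
  rw [h6]
  rcases eq_or_lt_of_le hx with h | h
  · subst h
    have hy0 : y ≠ 0 := by
      rcases h0 with h0 | h0
      · exact absurd rfl h0
      · exact h0
    have := mul_sin_lt hy0 hy
    rw [Real.exp_zero]
    linarith
  · have h1 := mul_sin_le hy
    have h7 : x + 1 < Real.exp x := Real.add_one_lt_exp h.ne'
    have h8 : y * (Real.exp x * Real.sin y) ≤ Real.exp x * (2 * (1 - Real.cos y)) := by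
      have := mul_le_mul_of_nonneg_left h1 hE.le
      linarith
    have h9 : x * Real.exp x * Real.cos y ≤ x * Real.exp x := by
      have : 0 ≤ x * Real.exp x := by positivity
      nlinarith
    have h10 : x * (Real.exp x - 1) < (Real.exp x - 1) * (Real.exp x - 1) :=
      mul_lt_mul_of_pos_right (by linarith) (by linarith)
    nlinarith

end Vale.Agent.P097.H990
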