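import Mathlib

/-!
# P097 : transition points at a prescribed level

`deriv_bound` : a holomorphic function with values in the strip of half width `H` has derivative
at most `6 H / r` at the centre of a disc of radius `r`.

`level_at` : mean value form: over an interval in which the vertical boundary values of `Im θ` are
`-H` on a set of density exactly `q` and `H` elsewhere, at relative height `η` there is a point with
`Im θ` at distance at most `6 H η (3 + 2 log (1/η))` from `H (1 - 2 q)`.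
-/

set_option linter.all false

open Complex MeasureTheory Set Filter Topology
open scoped Real Interval

namespace Vale.Agent.P097.H990.Lev

theorem deriv_bound {f : ℂ → ℂ} {H : ℝ} (hH : 0 < H) {z : ℂ} {r : ℝ} (hr : 0 < r)
    (hd : DifferentiableOn ℂ f (Metric.ball z r)) (hb : ∀ w ∈ Metric.ball z r, |(f w).im| ≤ H) :
    ‖deriv f z‖ ≤ 6 * H / r := by
  have hz : z ∈ Metric.ball z r := Metric.mem_ball_self hr
  set c : ℂ := -(I / (2 * H)) with hc
  have hc0 : c ≠ 0 := by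
    rw [hc]; refine neg_ne_zero.2 (div_ne_zero I_ne_zero ?_)
    exact mul_ne_zero two_ne_zero (by exact_mod_cast hH.ne')
  have hcre : ∀ w, (c * w).re = w.im / (2 * H) := by
    intro w
    have : c = ((-(1 / (2 * H)) : ℝ) : ℂ) * I := by rw [hc]; push_cast; ring
    rw [this, mul_assoc, Complex.re_ofReal_mul, Complex.I_mul_re]; ring
  set g : ℂ → ℂ := fun w => exp (c * f w) with hg
  have hgd : DifferentiableOn ℂ g (Metric.ball z r) := (hd.const_mul c).cexp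
  have hgn : ∀ w, ‖g w‖ = Real.exp ((f w).im / (2 * H)) := by
    intro w; rw [hg]; simp only; rw [Complex.norm_exp, hcre]
  set r' : ℝ := 19 / 20 * r with hr'
  have hr'0 : 0 < r' := by rw [hr']; positivity
  have hr'r : r' < r := by rw [hr']; linarith
  have hsub : Metric.closedBall z r' ⊆ Metric.ball z r := Metric.closedBall_subset_ball hr'r
  have h1 : ‖deriv g z‖ ≤ Real.exp (1 / 2) / r' := by
    refine Complex.norm_deriv_le_of_forall_mem_sphere_norm_le hr'0 ?_ ?_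
    · exact (hgd.mono hsub).diffContOnCl_ball subset_rfl
    · intro w hw
      rw [hgn]
      refine Real.exp_le_exp.2 ?_
      have := hb w (hsub (Metric.sphere_subset_closedBall hw))
      rw [div_le_div_iff₀ (by positivity) (by norm_num)]
      have := (abs_le.1 this).2
      linarith
  have hfd : DifferentiableAt ℂ f z := hd.differentiableAt (Metric.isOpen_ball.mem_nhds hz)
  have h2 : deriv g z = g z * (c * deriv f z) := by
    have := ((hfd.hasDerivAt.const_mul c).cexp).deriv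
    exact this
  have hcn : ‖c‖ = 1 / (2 * H) := by
    rw [hc, norm_neg, norm_div, Complex.norm_I, norm_mul, Complex.norm_real]
    simp [abs_of_pos hH]
  have h3 : Real.exp (-(1 / 2)) ≤ ‖g z‖ := by
    rw [hgn]
    refine Real.exp_le_exp.2 ?_
    have := (abs_le.1 (hb z hz)).1
    rw [neg_le_iff_add_nonneg, ← sub_nonneg]
    have h4 : (f z).im / (2 * H) ≥ (-H) / (2 * H) := by
      apply div_le_div_of_nonneg_right this (by positivity)
    have h5 : (-H) / (2 * H) = -(1 / 2) := by field_simp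
    linarith
  have h4 : ‖deriv f z‖ = 2 * H * (‖deriv g z‖ / ‖g z‖) := by
    rw [h2, norm_mul, norm_mul, hcn]
    have : ‖g z‖ ≠ 0 := by rw [hgn]; exact (Real.exp_pos _).ne'
    field_simp
  have h5 : ‖deriv g z‖ / ‖g z‖ ≤ (Real.exp (1 / 2) / r') / Real.exp (-(1 / 2)) :=
    div_le_div₀ (by positivity) h1 (Real.exp_pos _) h3
  have h6 : (Real.exp (1 / 2) / r') / Real.exp (-(1 / 2)) = Real.exp 1 / r' := by
    rw [Real.exp_neg, div_inv_eq_mul, div_mul_eq_mul_div, ← Real.exp_add]; norm_num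
  rw [h4]
  calc 2 * H * (‖deriv g z‖ / ‖g z‖) ≤ 2 * H * (Real.exp 1 / r') := by
        rw [← h6]; exact mul_le_mul_of_nonneg_left h5 (by positivity)
    _ ≤ 2 * H * (2.7182818286 / r') := by
        have := Real.exp_one_lt_d9
        gcongr
    _ ≤ 6 * H / r := by
        rw [hr']
        rw [show 2 * H * (2.7182818286 / (19 / 20 * r)) = (2 * 2.7182818286 * 20 / 19) * H / r by
          field_simp]
        have : (2 * 2.7182818286 * 20 / 19 : ℝ) ≤ 6 := by norm_num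
        gcongr

/-- the open box -/
def Box (a b h : ℝ) : Set ℂ := {z : ℂ | a < z.re ∧ z.re < b ∧ 0 < z.im ∧ z.im < h}

theorem ball_sub {a b h s y₁ y₂ x t : ℝ} (ha : a + s ≤ y₁) (hb : y₂ + s ≤ b) (hh : 2 * s ≤ h)
    (hx : x ∈ Icc y₁ y₂) (ht0 : 0 < t) (hts : t ≤ s) :
    Metric.ball ((x : ℂ) + t * I) t ⊆ Box a b h := by
  intro w hw
  rw [Metric.mem_ball, dist_eq_norm] at hw
  have h1 := (Complex.abs_re_le_norm (w - (x + t * I))).trans_lt hw
  have h2 := (Complex.abs_im_le_norm (w - (x + t * I))).trans_lt hw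
  have e1 : (w - (x + t * I)).re = w.re - x := by simp
  have e2 : (w - (x + t * I)).im = w.im - t := by simp
  rw [e1] at h1; rw [e2] at h2
  rw [abs_lt] at h1 h2
  obtain ⟨h11, h12⟩ := h1
  obtain ⟨h21, h22⟩ := h2
  obtain ⟨hx1, hx2⟩ := hx
  exact ⟨by linarith, by linarith, by linarith, by linarith⟩

theorem deriv_at {f : ℂ → ℂ} {a b h H : ℝ} (hH : 0 < H) (hd : DifferentiableOn ℂ f (Box a b h))
    (hb : ∀ z ∈ Box a b h, |(f z).im| ≤ H) {s y₁ y₂ x t : ℝ} (ha : a + s ≤ y₁) (hb' : y₂ + s ≤ b)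
    (hh : 2 * s ≤ h) (hx : x ∈ Icc y₁ y₂) (ht0 : 0 < t) (hts : t ≤ s) :
    DifferentiableAt ℂ f ((x : ℂ) + t * I) ∧ ‖deriv f ((x : ℂ) + t * I)‖ ≤ 6 * H / t := by
  have hs := ball_sub (a := a) (b := b) (h := h) ha hb' hh hx ht0 hts
  refine ⟨(hd.mono hs).differentiableAt (Metric.isOpen_ball.mem_nhds
    (Metric.mem_ball_self ht0)), deriv_bound hH ht0 (hd.mono hs) fun w hw => hb w (hs hw)⟩

/-- vertical displacement -/
theorem vert {f : ℂ → ℂ} {a b h H : ℝ} (hH : 0 < H) (hd : DifferentiableOn ℂ f (Box a b h))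
    (hb : ∀ z ∈ Box a b h, |(f z).im| ≤ H) {s y₁ y₂ x t : ℝ} (ha : a + s ≤ y₁) (hb' : y₂ + s ≤ b)
    (hh : 2 * s ≤ h) (hx : x ∈ Icc y₁ y₂) (ht0 : 0 < t) (hts : t ≤ s) :
    ‖f ((x : ℂ) + s * I) - f ((x : ℂ) + t * I)‖ ≤ 6 * H * Real.log (s / t) := by
  have hs0 : 0 < s := ht0.trans_le hts
  have key : ∀ τ ∈ Icc t s, HasDerivAt (fun τ : ℝ => f ((x : ℂ) + τ * I))
      (deriv f ((x : ℂ) + τ * I) * I) τ := by
    intro τ hτ
    have h1 := (deriv_at hH hd hb ha hb' hh hx (ht0.trans_le hτ.1) hτ.2).1.hasDerivAt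
    have h2 : HasDerivAt (fun τ : ℝ => (x : ℂ) + τ * I) I τ := by
      have := ((Complex.ofRealCLM.hasDerivAt (x := τ)).mul_const I).const_add (x : ℂ)
      simpa using this
    exact h1.comp τ h2
  have hB : ∀ τ ∈ Icc t s, HasDerivAt (fun τ => 6 * H * (Real.log τ - Real.log t)) (6 * H / τ) τ := by
    intro τ hτ
    have hτ0 : τ ≠ 0 := (ht0.trans_le hτ.1).ne'
    have := ((Real.hasDerivAt_log hτ0).sub_const (Real.log t)).const_mul (6 * H)
    rw [div_eq_mul_inv]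
    exact this
  have h3 := image_norm_le_of_norm_deriv_right_le_deriv_boundary'
    (f := fun τ : ℝ => f ((x : ℂ) + τ * I) - f ((x : ℂ) + t * I)) (a := t) (b := s)
    (f' := fun τ => deriv f ((x : ℂ) + τ * I) * I)
    (B := fun τ => 6 * H * (Real.log τ - Real.log t)) (B' := fun τ => 6 * H / τ)
    (fun τ hτ => ((key τ hτ).sub_const _).continuousAt.continuousWithinAt)
    (fun τ hτ => ((key τ ⟨hτ.1, hτ.2.le⟩).sub_const _).hasDerivWithinAt)
    (by simp)
    (fun τ hτ => (hB τ hτ).continuousAt.continuousWithinAt)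
    (fun τ hτ => (hB τ ⟨hτ.1, hτ.2.le⟩).hasDerivWithinAt)
    (fun τ hτ => by
      rw [norm_mul, Complex.norm_I, mul_one]
      exact (deriv_at hH hd hb ha hb' hh hx (ht0.trans_le hτ.1) hτ.2.le).2)
    (right_mem_Icc.2 hts)
  rw [Real.log_div hs0.ne' ht0.ne']
  exact h3

/-- horizontal displacement at height `s` -/
theorem horiz {f : ℂ → ℂ} {a b h H : ℝ} (hH : 0 < H) (hd : DifferentiableOn ℂ f (Box a b h))
    (hb : ∀ z ∈ Box a b h, |(f z).im| ≤ H) {s y₁ y₂ : ℝ} (hs : 0 < s) (h12 : y₂ = y₁ + s)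
    (ha : a + s ≤ y₁) (hb' : y₂ + s ≤ b) (hh : 2 * s ≤ h) :
    ‖f ((y₂ : ℂ) + s * I) - f ((y₁ : ℂ) + s * I)‖ ≤ 6 * H := by
  have h1 : ∀ x ∈ Icc y₁ y₂, HasDerivAt (fun x : ℝ => f ((x : ℂ) + s * I))
      (deriv f ((x : ℂ) + s * I)) x := by
    intro x hx
    have h1 := (deriv_at hH hd hb ha hb' hh hx hs le_rfl).1.hasDerivAt
    have h2 : HasDerivAt (fun x : ℝ => (x : ℂ) + s * I) 1 x := by
      have := (Complex.ofRealCLM.hasDerivAt (x := x)).add_const ((s : ℂ) * I)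
      simpa using this
    have := h1.comp x h2
    rw [mul_one] at this
    exact this
  have h2 := norm_image_sub_le_of_norm_deriv_le_segment'
    (f := fun x : ℝ => f ((x : ℂ) + s * I)) (C := 6 * H / s) (a := y₁) (b := y₂)
    (fun x hx => (h1 x hx).hasDerivWithinAt)
    (fun x hx => (deriv_at hH hd hb ha hb' hh ⟨hx.1, hx.2.le⟩ hs le_rfl).2) y₂
    (right_mem_Icc.2 (by linarith))
  have h3 : 6 * H / s * (y₂ - y₁) = 6 * H := by
    rw [h12]; field_simp; ring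
  rw [h3] at h2
  exact h2

/-- the difference across the interval at height `t` -/
theorem cross {f : ℂ → ℂ} {a b h H : ℝ} (hH : 0 < H) (hd : DifferentiableOn ℂ f (Box a b h))
    (hb : ∀ z ∈ Box a b h, |(f z).im| ≤ H) {s y₁ y₂ t : ℝ} (hs : 0 < s) (h12 : y₂ = y₁ + s)
    (ha : a + s ≤ y₁) (hb' : y₂ + s ≤ b) (hh : 2 * s ≤ h) (ht0 : 0 < t) (hts : t ≤ s) :
    ‖f ((y₂ : ℂ) + t * I) - f ((y₁ : ℂ) + t * I)‖ ≤ 6 * H * (1 + 2 * Real.log (s / t)) := by
  have h1 := vert hH hd hb ha hb' hh (x := y₁) ⟨le_rfl, by linarith⟩ ht0 hts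
  have h2 := vert hH hd hb ha hb' hh (x := y₂) ⟨by linarith, le_rfl⟩ ht0 hts
  have h3 := horiz hH hd hb hs h12 ha hb' hh
  have e : f ((y₂ : ℂ) + t * I) - f ((y₁ : ℂ) + t * I)
      = -(f ((y₂ : ℂ) + s * I) - f ((y₂ : ℂ) + t * I)) + (f ((y₂ : ℂ) + s * I)
        - f ((y₁ : ℂ) + s * I)) + (f ((y₁ : ℂ) + s * I) - f ((y₁ : ℂ) + t * I)) := by ring
  rw [e]
  refine (norm_add_le _ _).trans ?_
  refine (add_le_add_left (norm_add_le _ _) _).trans ?_
  rw [norm_neg]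
  linarith

/-- the horizontal mean (complex) -/
noncomputable def Mc (f : ℂ → ℂ) (y₁ y₂ t : ℝ) : ℂ := ∫ x : ℝ in y₁..y₂, f ((x : ℂ) + t * I)

theorem log_prim {s t : ℝ} (hs : 0 < s) (ht : 0 < t) :
    HasDerivAt (fun t => t * (3 + 2 * Real.log (s / t))) (1 + 2 * Real.log (s / t)) t := by
  have h1 : HasDerivAt (fun t => Real.log (s / t)) (-(1 / t)) t := by
    have h0 : HasDerivAt (fun t : ℝ => s / t) (s * (-(t ^ 2)⁻¹)) t := by
      have := (hasDerivAt_inv ht.ne').const_mul s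
      simpa only [div_eq_mul_inv] using this
    have h00 := h0.log (div_pos hs ht).ne'
    have e : s * (-(t ^ 2)⁻¹) / (s / t) = -(1 / t) := by field_simp
    rwa [e] at h00
  have h2 := (hasDerivAt_id t).mul ((h1.const_mul 2).const_add 3)
  have e : 1 * (3 + 2 * Real.log (s / t)) + id t * (2 * (-(1 / t)))
      = 1 + 2 * Real.log (s / t) := by
    simp only [id_eq]; field_simp; ring
  rw [e] at h2
  exact h2

/-- variation of the mean with the height -/
theorem mean_var {f : ℂ → ℂ} {a b h H : ℝ} (hH : 0 < H) (hd : DifferentiableOn ℂ f (Box a b h))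
    (hb : ∀ z ∈ Box a b h, |(f z).im| ≤ H) {s y₁ y₂ t t₁ : ℝ} (hs : 0 < s) (h12 : y₂ = y₁ + s)
    (ha : a + s ≤ y₁) (hb' : y₂ + s ≤ b) (hh : 2 * s ≤ h) (ht0 : 0 < t) (htt : t ≤ t₁)
    (hts : t₁ ≤ s) :
    ‖Mc f y₁ y₂ t₁ - Mc f y₁ y₂ t‖ ≤ 6 * H * (t₁ * (3 + 2 * Real.log (s / t₁))) := by
  have hy : y₁ ≤ y₂ := by linarith
  have hrect := Complex.integral_boundary_rect_eq_zero_of_differentiableOn f
    ((y₁ : ℂ) + t * I) ((y₂ : ℂ) + t₁ * I) (by
      refine hd.mono fun z hz => ?_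
      rw [mem_reProdIm] at hz
      simp only [add_re, ofReal_re, mul_re, I_re, mul_zero, ofReal_im, I_im, mul_one, sub_self,
        add_zero, add_im, mul_im, zero_add, uIcc_of_le hy, uIcc_of_le htt] at hz
      obtain ⟨⟨h1, h2⟩, h3, h4⟩ := hz
      exact ⟨by linarith, by linarith, by linarith, by linarith⟩)
  simp only [add_re, ofReal_re, mul_re, I_re, mul_zero, ofReal_im, I_im, mul_one, sub_self,
        add_zero, add_im, mul_im, zero_add, smul_eq_mul] at hrect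
  have hint : ∀ x ∈ Icc y₁ y₂, ContinuousOn (fun τ : ℝ => f ((x : ℂ) + τ * I)) (Icc t t₁) := by
    intro x hx τ hτ
    have h1 := (deriv_at hH hd hb ha hb' hh hx (ht0.trans_le hτ.1) (hτ.2.trans hts)).1.continuousAt
    have h2 : ContinuousAt (fun τ : ℝ => (x : ℂ) + τ * I) τ := by fun_prop
    exact (ContinuousAt.comp (f := fun τ : ℝ => (x : ℂ) + τ * I) h1 h2).continuousWithinAt
  have hI : ∀ x ∈ Icc y₁ y₂, IntervalIntegrable (fun τ : ℝ => f ((x : ℂ) + τ * I)) volume t t₁ :=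
    fun x hx => ((hint x hx).mono (by rw [uIcc_of_le htt])).intervalIntegrable
  have e : Mc f y₁ y₂ t₁ - Mc f y₁ y₂ t
      = I * ∫ τ : ℝ in t..t₁, (f ((y₂ : ℂ) + τ * I) - f ((y₁ : ℂ) + τ * I)) := by
    rw [intervalIntegral.integral_sub (hI y₂ ⟨hy, le_rfl⟩) (hI y₁ ⟨le_rfl, hy⟩)]
    unfold Mc
    linear_combination -hrect
  rw [e, norm_mul, Complex.norm_I, one_mul]
  have hg : ∀ τ ∈ Icc t t₁, HasDerivAt (fun τ => 6 * H * (τ * (3 + 2 * Real.log (s / τ))))
      (6 * H * (1 + 2 * Real.log (s / τ))) τ := fun τ hτ =>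
    (log_prim hs (ht0.trans_le hτ.1)).const_mul _
  have hgc : ContinuousOn (fun τ => 6 * H * (1 + 2 * Real.log (s / τ))) (Icc t t₁) := by
    intro τ hτ
    have hτ0 : 0 < τ := ht0.trans_le hτ.1
    have : ContinuousAt (fun τ => Real.log (s / τ)) τ :=
      ContinuousAt.log (continuousAt_const.div continuousAt_id hτ0.ne') (div_pos hs hτ0).ne'
    exact ((this.const_mul 2).const_add 1 |>.const_mul (6 * H)).continuousWithinAt
  have hgi : IntervalIntegrable (fun τ => 6 * H * (1 + 2 * Real.log (s / τ))) volume t t₁ :=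
    (hgc.mono (by rw [uIcc_of_le htt])).intervalIntegrable
  have h1 : ‖∫ τ : ℝ in t..t₁, (f ((y₂ : ℂ) + τ * I) - f ((y₁ : ℂ) + τ * I))‖
      ≤ ∫ τ : ℝ in t..t₁, 6 * H * (1 + 2 * Real.log (s / τ)) := by
    refine intervalIntegral.norm_integral_le_of_norm_le htt ?_ hgi
    exact Eventually.of_forall fun τ hτ => cross hH hd hb hs h12 ha hb' hh (ht0.trans hτ.1)
      (hτ.2.trans hts)
  have h2 : ∫ τ : ℝ in t..t₁, 6 * H * (1 + 2 * Real.log (s / τ))
      = 6 * H * (t₁ * (3 + 2 * Real.log (s / t₁))) - 6 * H * (t * (3 + 2 * Real.log (s / t))) :=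
    intervalIntegral.integral_eq_sub_of_hasDerivAt (fun τ hτ => hg τ (by rwa [uIcc_of_le htt] at hτ))
      hgi
  have h3 : 0 ≤ 6 * H * (t * (3 + 2 * Real.log (s / t))) := by
    have : 0 ≤ Real.log (s / t) := Real.log_nonneg ((one_le_div ht0).2 (htt.trans hts))
    positivity
  linarith

/-- the boundary value of the horizontal mean -/
theorem mean_lim {f : ℂ → ℂ} {a b h H : ℝ} (hH : 0 < H) (hd : DifferentiableOn ℂ f (Box a b h))
    (hb : ∀ z ∈ Box a b h, |(f z).im| ≤ H) {y₁ y₂ : ℝ} (h12 : y₁ ≤ y₂)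
    (ha : a < y₁) (hb' : y₂ < b) (hh : 0 < h) {E : Set ℝ} (hE : MeasurableSet E)
    (hlim : ∀ᵐ x : ℝ, x ∈ Ioc y₁ y₂ →
      (x ∈ E → Tendsto (fun t : ℝ => (f ((x : ℂ) + t * I)).im) (𝓝[>] 0) (𝓝 (-H))) ∧
      (x ∉ E → Tendsto (fun t : ℝ => (f ((x : ℂ) + t * I)).im) (𝓝[>] 0) (𝓝 H))) :
    Tendsto (fun t => (Mc f y₁ y₂ t).im) (𝓝[>] 0)
      (𝓝 (H * (y₂ - y₁) - 2 * H * (volume (E ∩ Ioc y₁ y₂)).toReal)) := by
  have hcont : ∀ t ∈ Ioo 0 h, ContinuousOn (fun x : ℝ => f ((x : ℂ) + t * I)) (Icc y₁ y₂) := by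
    intro t ht x hx
    have hz : (x : ℂ) + t * I ∈ Box a b h := by
      refine ⟨?_, ?_, ?_, ?_⟩ <;> simp <;> [linarith [hx.1]; linarith [hx.2]; exact ht.1; exact ht.2]
    have ho : IsOpen (Box a b h) := by
      have : Box a b h = (Ioo a b) ×ℂ (Ioo 0 h) := by
        ext z; simp [Box, mem_reProdIm, and_assoc]
      rw [this]; exact isOpen_Ioo.reProdIm isOpen_Ioo
    have h1 := (hd.differentiableAt (ho.mem_nhds hz)).continuousAt
    have h2 : ContinuousAt (fun x : ℝ => (x : ℂ) + t * I) x := by fun_prop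
    exact (ContinuousAt.comp (f := fun x : ℝ => (x : ℂ) + t * I) h1 h2).continuousWithinAt
  have hev : ∀ᶠ t : ℝ in 𝓝[>] 0, t ∈ Ioo 0 h := Ioo_mem_nhdsGT hh
  have e1 : ∀ᶠ t : ℝ in 𝓝[>] 0, (∫ x : ℝ in y₁..y₂, (f ((x : ℂ) + t * I)).im)
      = (Mc f y₁ y₂ t).im := by
    filter_upwards [hev] with t ht
    have hi : IntervalIntegrable (fun x : ℝ => f ((x : ℂ) + t * I)) volume y₁ y₂ :=
      ((hcont t ht).mono (by rw [uIcc_of_le h12])).intervalIntegrable
    unfold Mc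
    have := (Complex.imCLM.intervalIntegral_comp_comm hi)
    simpa using this
  have hdc : Tendsto (fun t : ℝ => ∫ x : ℝ in y₁..y₂, (f ((x : ℂ) + t * I)).im) (𝓝[>] 0)
      (𝓝 (∫ x : ℝ in y₁..y₂, (H - E.indicator (fun _ => 2 * H) x))) := by
    refine intervalIntegral.tendsto_integral_filter_of_dominated_convergence (fun _ => H) ?_ ?_ ?_ ?_
    · filter_upwards [hev] with t ht
      have : ContinuousOn (fun x : ℝ => (f ((x : ℂ) + t * I)).im) (Ι y₁ y₂) := by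
        refine (Complex.continuous_im.comp_continuousOn (hcont t ht)).mono ?_
        rw [uIoc_of_le h12]; exact Ioc_subset_Icc_self
      exact this.aestronglyMeasurable measurableSet_uIoc
    · filter_upwards [hev] with t ht
      refine Eventually.of_forall fun x hx => ?_
      rw [uIoc_of_le h12] at hx
      rw [Real.norm_eq_abs]
      refine hb _ ⟨?_, ?_, ?_, ?_⟩ <;> simp <;> [linarith [hx.1]; linarith [hx.2]; exact ht.1; exact ht.2]
    · exact intervalIntegrable_const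
    · filter_upwards [hlim] with x hx hx'
      rw [uIoc_of_le h12] at hx'
      by_cases hxE : x ∈ E
      · have h3 := (hx hx').1 hxE
        have e0 : H - E.indicator (fun _ => 2 * H) x = -H := by
          rw [indicator_of_mem hxE]; ring
        rw [e0]; exact h3
      · have h3 := (hx hx').2 hxE
        have e0 : H - E.indicator (fun _ => 2 * H) x = H := by
          rw [indicator_of_notMem hxE]; ring
        rw [e0]; exact h3
  have e2 : ∫ x : ℝ in y₁..y₂, (H - E.indicator (fun _ => 2 * H) x)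
      = H * (y₂ - y₁) - 2 * H * (volume (E ∩ Ioc y₁ y₂)).toReal := by
    rw [intervalIntegral.integral_of_le h12, integral_sub]
    · rw [integral_const, setIntegral_indicator hE, integral_const]
      simp only [MeasureTheory.measureReal_def, Measure.restrict_apply MeasurableSet.univ,
        univ_inter, smul_eq_mul, Real.volume_Ioc]
      rw [ENNReal.toReal_ofReal (by linarith), inter_comm]
      ring
    · exact integrable_const _
    · exact (integrable_const (2 * H)).indicator hE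
  rw [e2] at hdc
  exact hdc.congr' e1

/-- the horizontal mean of `Im f` at relative height `η` over an interval of density `q` -/
theorem mean_at {f : ℂ → ℂ} {a b h H : ℝ} (hH : 0 < H) (hd : DifferentiableOn ℂ f (Box a b h))
    (hb : ∀ z ∈ Box a b h, |(f z).im| ≤ H) {s y₁ y₂ q η : ℝ} (hs : 0 < s) (h12 : y₂ = y₁ + s)
    (ha : a + s ≤ y₁) (hb' : y₂ + s ≤ b) (hh : 2 * s ≤ h) {E : Set ℝ} (hE : MeasurableSet E)
    (hlim : ∀ᵐ x : ℝ, x ∈ Ioo y₁ y₂ →
      (x ∈ E → Tendsto (fun t : ℝ => (f ((x : ℂ) + t * I)).im) (𝓝[>] 0) (𝓝 (-H))) ∧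
      (x ∉ E → Tendsto (fun t : ℝ => (f ((x : ℂ) + t * I)).im) (𝓝[>] 0) (𝓝 H)))
    (hq : volume.real (E ∩ Icc y₁ y₂) = q * s) (hη0 : 0 < η) (hη1 : η ≤ 1) :
    |(∫ x : ℝ in y₁..y₂, (f ((x : ℂ) + ((η * s : ℝ) : ℂ) * I)).im) / s - H * (1 - 2 * q)|
      ≤ 6 * H * η * (3 + 2 * Real.log (1 / η)) := by
  have hy : y₁ ≤ y₂ := by linarith
  have hηs0 : 0 < η * s := by positivity
  have hηs : η * s ≤ s := by nlinarith
  have hlimc : ∀ᵐ x : ℝ, x ∈ Ioc y₁ y₂ →
      (x ∈ E → Tendsto (fun t : ℝ => (f ((x : ℂ) + t * I)).im) (𝓝[>] 0) (𝓝 (-H))) ∧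
      (x ∉ E → Tendsto (fun t : ℝ => (f ((x : ℂ) + t * I)).im) (𝓝[>] 0) (𝓝 H)) := by
    filter_upwards [hlim, (compl_mem_ae_iff.2 (by simp : volume ({y₂} : Set ℝ) = 0))] with x hx hx2 hx3
    exact hx ⟨hx3.1, lt_of_le_of_ne hx3.2 hx2⟩
  have hqc : (volume (E ∩ Ioc y₁ y₂)).toReal = q * s := by
    rw [← hq, Measure.real]
    congr 1
    exact measure_congr ((ae_eq_refl E).inter Ioc_ae_eq_Icc)
  have hlim' := mean_lim hH hd hb hy (by linarith) (by linarith) (by linarith) hE hlimc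
  rw [hqc] at hlim'
  have hK : |(Mc f y₁ y₂ (η * s)).im - (H * (y₂ - y₁) - 2 * H * (q * s))|
      ≤ 6 * H * (η * s * (3 + 2 * Real.log (s / (η * s)))) := by
    have h1 : Tendsto (fun t => |(Mc f y₁ y₂ (η * s)).im - (Mc f y₁ y₂ t).im|) (𝓝[>] 0)
        (𝓝 |(Mc f y₁ y₂ (η * s)).im - (H * (y₂ - y₁) - 2 * H * (q * s))|) :=
      (hlim'.const_sub _).abs
    refine le_of_tendsto h1 ?_
    filter_upwards [Ioo_mem_nhdsGT hηs0] with t ht
    rw [← Complex.sub_im]
    exact (Complex.abs_im_le_norm _).trans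
      (mean_var hH hd hb hs h12 ha hb' hh ht.1 ht.2.le hηs)
  have hcont : ContinuousOn (fun x : ℝ => f ((x : ℂ) + ((η * s : ℝ) : ℂ) * I)) (Icc y₁ y₂) := by
    intro x hx
    have h1 := (deriv_at hH hd hb ha hb' hh hx hηs0 hηs).1.continuousAt
    have h2 : ContinuousAt (fun x : ℝ => (x : ℂ) + ((η * s : ℝ) : ℂ) * I) x := by fun_prop
    exact (ContinuousAt.comp (f := fun x : ℝ => (x : ℂ) + ((η * s : ℝ) : ℂ) * I) h1
      h2).continuousWithinAt
  have e1 : (∫ x : ℝ in y₁..y₂, (f ((x : ℂ) + ((η * s : ℝ) : ℂ) * I)).im)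
      = (Mc f y₁ y₂ (η * s)).im := by
    have hi : IntervalIntegrable (fun x : ℝ => f ((x : ℂ) + ((η * s : ℝ) : ℂ) * I)) volume y₁ y₂ :=
      (hcont.mono (by rw [uIcc_of_le hy])).intervalIntegrable
    unfold Mc
    have := (Complex.imCLM.intervalIntegral_comp_comm hi)
    simpa using this
  rw [e1]
  have e2 : y₂ - y₁ = s := by linarith
  rw [e2] at hK
  have e3 : s / (η * s) = 1 / η := by field_simp
  rw [e3] at hK
  have e4 : (Mc f y₁ y₂ (η * s)).im / s - H * (1 - 2 * q)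
      = ((Mc f y₁ y₂ (η * s)).im - (H * s - 2 * H * (q * s))) / s := by field_simp
  rw [e4, abs_div, abs_of_pos hs, div_le_iff₀ hs]
  refine hK.trans (le_of_eq ?_)
  ring

/-- **transition point at a prescribed level** -/
theorem level_at {f : ℂ → ℂ} {a b h H : ℝ} (hH : 0 < H) (hd : DifferentiableOn ℂ f (Box a b h))
    (hb : ∀ z ∈ Box a b h, |(f z).im| ≤ H) {s y₁ y₂ q η : ℝ} (hs : 0 < s) (h12 : y₂ = y₁ + s)
    (ha : a + s ≤ y₁) (hb' : y₂ + s ≤ b) (hh : 2 * s ≤ h) {E : Set ℝ} (hE : MeasurableSet E)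
    (hlim : ∀ᵐ x : ℝ, x ∈ Ioo y₁ y₂ →
      (x ∈ E → Tendsto (fun t : ℝ => (f ((x : ℂ) + t * I)).im) (𝓝[>] 0) (𝓝 (-H))) ∧
      (x ∉ E → Tendsto (fun t : ℝ => (f ((x : ℂ) + t * I)).im) (𝓝[>] 0) (𝓝 H)))
    (hq : volume.real (E ∩ Icc y₁ y₂) = q * s) (hη0 : 0 < η) (hη1 : η ≤ 1) :
    ∃ y' ∈ Ioo y₁ y₂, |(f ((y' : ℂ) + ((η * s : ℝ) : ℂ) * I)).im - H * (1 - 2 * q)|
      ≤ 6 * H * η * (3 + 2 * Real.log (1 / η)) := by
  have hy : y₁ ≤ y₂ := by linarith
  have hηs0 : 0 < η * s := by positivity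
  have hηs : η * s ≤ s := by nlinarith
  have hcim : ContinuousOn (fun x : ℝ => (f ((x : ℂ) + ((η * s : ℝ) : ℂ) * I)).im) (uIcc y₁ y₂) := by
    rw [uIcc_of_le hy]
    intro x hx
    have h1 := (deriv_at hH hd hb ha hb' hh hx hηs0 hηs).1.continuousAt
    have h2 : ContinuousAt (fun x : ℝ => (x : ℂ) + ((η * s : ℝ) : ℂ) * I) x := by fun_prop
    exact (Complex.continuous_im.continuousAt.comp (ContinuousAt.comp
      (f := fun x : ℝ => (x : ℂ) + ((η * s : ℝ) : ℂ) * I) h1 h2)).continuousWithinAt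
  have hne : y₁ ≠ y₂ := by intro h0; rw [h0] at h12; linarith
  obtain ⟨y', hy', hyv⟩ := exists_eq_interval_average hne hcim
  rw [uIoo_of_le hy] at hy'
  refine ⟨y', hy', ?_⟩
  rw [hyv, interval_average_eq_div, show y₂ - y₁ = s by linarith]
  exact mean_at hH hd hb hs h12 ha hb' hh hE hlim hq hη0 hη1

/-! ### the mirror image: the edge is above -/

/-- the open box below the height `v` -/
def BoxB (a b v h : ℝ) : Set ℂ := {z : ℂ | a < z.re ∧ z.re < b ∧ v - h < z.im ∧ z.im < v}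

theorem mirror_diff {f : ℂ → ℂ} {a b v h : ℝ} (hd : DifferentiableOn ℂ f (BoxB a b v h)) :
    DifferentiableOn ℂ (fun z => (starRingEnd ℂ) (f ((starRingEnd ℂ) z + v * I))) (Box a b h) := by
  have ho : IsOpen (BoxB a b v h) := by
    have : BoxB a b v h = (Ioo a b) ×ℂ (Ioo (v - h) v) := by
      ext z; simp [BoxB, mem_reProdIm, and_assoc]
    rw [this]; exact isOpen_Ioo.reProdIm isOpen_Ioo
  intro z hz
  have hz' : (starRingEnd ℂ) z + v * I ∈ BoxB a b v h := by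
    obtain ⟨h1, h2, h3, h4⟩ := hz
    refine ⟨?_, ?_, ?_, ?_⟩ <;> simp <;> linarith
  have h1 : DifferentiableAt ℂ (fun w => f (w + v * I)) ((starRingEnd ℂ) z) :=
    DifferentiableAt.comp (f := fun w : ℂ => w + v * I) _ (hd.differentiableAt (ho.mem_nhds hz'))
      (by fun_prop)
  have h2 := h1.star_star
  have h3 : DifferentiableAt ℂ (fun z => (starRingEnd ℂ) (f ((starRingEnd ℂ) z + v * I))) z := by
    have e : (star ∘ (fun w => f (w + v * I)) ∘ star) = fun z => (starRingEnd ℂ) (f ((starRingEnd ℂ) z + v * I)) := by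
      funext w; rfl
    rw [← e]
    simpa using h2
  exact h3.differentiableWithinAt

theorem mirror_im {f : ℂ → ℂ} {v x t : ℝ} :
    ((starRingEnd ℂ) (f ((starRingEnd ℂ) ((x : ℂ) + t * I) + v * I))).im
      = -(f ((x : ℂ) + ((v - t : ℝ) : ℂ) * I)).im := by
  rw [Complex.conj_im]
  congr 3
  simp
  ring

/-- `mean_at` with the edge above: `Im f → H` on `E`, `-H` off `E` -/
theorem mean_below {f : ℂ → ℂ} {a b v h H : ℝ} (hH : 0 < H)
    (hd : DifferentiableOn ℂ f (BoxB a b v h))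
    (hb : ∀ z ∈ BoxB a b v h, |(f z).im| ≤ H) {s y₁ y₂ q η : ℝ} (hs : 0 < s) (h12 : y₂ = y₁ + s)
    (ha : a + s ≤ y₁) (hb' : y₂ + s ≤ b) (hh : 2 * s ≤ h) {E : Set ℝ} (hE : MeasurableSet E)
    (hlim : ∀ᵐ x : ℝ, x ∈ Ioo y₁ y₂ →
      (x ∈ E → Tendsto (fun t : ℝ => (f ((x : ℂ) + ((v - t : ℝ) : ℂ) * I)).im) (𝓝[>] 0) (𝓝 H)) ∧
      (x ∉ E → Tendsto (fun t : ℝ => (f ((x : ℂ) + ((v - t : ℝ) : ℂ) * I)).im) (𝓝[>] 0)
        (𝓝 (-H))))
    (hq : volume.real (E ∩ Icc y₁ y₂) = q * s) (hη0 : 0 < η) (hη1 : η ≤ 1) :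
    |(∫ x : ℝ in y₁..y₂, (f ((x : ℂ) + ((v - η * s : ℝ) : ℂ) * I)).im) / s - H * (2 * q - 1)|
      ≤ 6 * H * η * (3 + 2 * Real.log (1 / η)) := by
  have h1 := mean_at (f := fun z => (starRingEnd ℂ) (f ((starRingEnd ℂ) z + v * I))) hH
    (mirror_diff hd) (by
      intro z hz
      rw [Complex.conj_im, abs_neg]
      refine hb _ ?_
      obtain ⟨h1, h2, h3, h4⟩ := hz
      refine ⟨?_, ?_, ?_, ?_⟩ <;> simp <;> linarith) hs h12 ha hb' hh hE (by
      filter_upwards [hlim] with x hx hx'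
      obtain ⟨h1, h2⟩ := hx hx'
      simp only [mirror_im]
      refine ⟨fun hxE => (h1 hxE).neg, fun hxE => ?_⟩
      have := (h2 hxE).neg
      rwa [neg_neg] at this) hq hη0 hη1
  simp only [mirror_im, intervalIntegral.integral_neg] at h1
  rw [← abs_neg]
  refine le_trans (le_of_eq ?_) h1
  congr 1
  ring

/-- **transition point at a prescribed level, edge above**: `Im f → H` on `E`, `-H` off `E` -/
theorem level_below {f : ℂ → ℂ} {a b v h H : ℝ} (hH : 0 < H)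
    (hd : DifferentiableOn ℂ f (BoxB a b v h))
    (hb : ∀ z ∈ BoxB a b v h, |(f z).im| ≤ H) {s y₁ y₂ q η : ℝ} (hs : 0 < s) (h12 : y₂ = y₁ + s)
    (ha : a + s ≤ y₁) (hb' : y₂ + s ≤ b) (hh : 2 * s ≤ h) {E : Set ℝ} (hE : MeasurableSet E)
    (hlim : ∀ᵐ x : ℝ, x ∈ Ioo y₁ y₂ →
      (x ∈ E → Tendsto (fun t : ℝ => (f ((x : ℂ) + ((v - t : ℝ) : ℂ) * I)).im) (𝓝[>] 0) (𝓝 H)) ∧
      (x ∉ E → Tendsto (fun t : ℝ => (f ((x : ℂ) + ((v - t : ℝ) : ℂ) * I)).im) (𝓝[>] 0)
        (𝓝 (-H))))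
    (hq : volume.real (E ∩ Icc y₁ y₂) = q * s) (hη0 : 0 < η) (hη1 : η ≤ 1) :
    ∃ y' ∈ Ioo y₁ y₂, |(f ((y' : ℂ) + ((v - η * s : ℝ) : ℂ) * I)).im - H * (2 * q - 1)|
      ≤ 6 * H * η * (3 + 2 * Real.log (1 / η)) := by
  obtain ⟨y', hy', h1⟩ := level_at (f := fun z => (starRingEnd ℂ) (f ((starRingEnd ℂ) z + v * I))) hH
    (mirror_diff hd) (by
      intro z hz
      rw [Complex.conj_im, abs_neg]
      refine hb _ ?_
      obtain ⟨h1, h2, h3, h4⟩ := hz
      refine ⟨?_, ?_, ?_, ?_⟩ <;> simp <;> linarith) hs h12 ha hb' hh hE (by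
      filter_upwards [hlim] with x hx hx'
      obtain ⟨h1, h2⟩ := hx hx'
      simp only [mirror_im]
      refine ⟨fun hxE => (h1 hxE).neg, fun hxE => ?_⟩
      have := (h2 hxE).neg
      rwa [neg_neg] at this) hq hη0 hη1
  refine ⟨y', hy', ?_⟩
  rw [mirror_im] at h1
  rw [← abs_neg]
  refine le_trans (le_of_eq ?_) h1
  congr 1
  ring

end Vale.Agent.P097.H990.Lev
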