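import Vale.Agent.P097.H202.Prim
import Vale.Agent.P097.H990.Ineq

/-! # P097 / RAT-K: the logarithm of `(e ^ z - 1) / z` on `|Im z| < 2 π`.

Owner: helper990. -/

set_option linter.all false

open Complex Metric Filter Topology Set
open scoped ComplexConjugate

namespace Vale.Agent.P097.H990

/-- `(e ^ z - 1) / z` -/
noncomputable def E1 : ℂ → ℂ := dslope Complex.exp 0

theorem E1_zero : E1 0 = 1 := by simp [E1, dslope_same]

theorem E1_of_ne {z : ℂ} (hz : z ≠ 0) : E1 z = (Complex.exp z - 1) / z := by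
  rw [E1, dslope_of_ne _ hz, slope_def_field]; simp

theorem E1_mul (z : ℂ) : z * E1 z = Complex.exp z - 1 := by
  rcases eq_or_ne z 0 with rfl | hz
  · simp
  · rw [E1_of_ne hz]; field_simp

theorem diff_E1 : Differentiable ℂ E1 := by
  have h1 : DifferentiableOn ℂ (dslope Complex.exp 0) univ :=
    (Complex.differentiableOn_dslope univ_mem).2 Complex.differentiable_exp.differentiableOn
  exact differentiableOn_univ.1 h1

/-- the strip `|Im z| < 2 π` -/
def ZS : Set ℂ := {z | |z.im| < 2 * Real.pi}

theorem isOpen_ZS : IsOpen ZS := isOpen_lt (Complex.continuous_im.abs) continuous_const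

theorem convex_ZS : Convex ℝ ZS := by
  have h2 : Convex ℝ {ω : ℂ | ω.im < 2 * Real.pi} := convex_halfSpace_im_lt _
  have h3 : Convex ℝ {ω : ℂ | -(2 * Real.pi) < ω.im} := convex_halfSpace_im_gt _
  have : ZS = {ω : ℂ | ω.im < 2 * Real.pi} ∩ {ω : ℂ | -(2 * Real.pi) < ω.im} := by
    ext ω
    simp only [ZS, mem_setOf_eq, mem_inter_iff, abs_lt]
    tauto
  rw [this]
  exact h2.inter h3

theorem zero_mem_ZS : (0 : ℂ) ∈ ZS := by simp [ZS, Real.pi_pos]

theorem neg_mem_ZS {z : ℂ} (hz : z ∈ ZS) : -z ∈ ZS := by simpa [ZS] using hz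

theorem conj_mem_ZS {z : ℂ} (hz : z ∈ ZS) : conj z ∈ ZS := by simpa [ZS] using hz

theorem E1_ne_zero {z : ℂ} (hz : z ∈ ZS) : E1 z ≠ 0 := by
  rcases eq_or_ne z 0 with rfl | h0
  · rw [E1_zero]; exact one_ne_zero
  · intro h
    have h1 := E1_mul z
    rw [h, mul_zero] at h1
    have h2 : Complex.exp z = 1 := by linear_combination -h1
    obtain ⟨n, hn⟩ := Complex.exp_eq_one_iff.1 h2
    have h3 : z.im = n * (2 * Real.pi) := by rw [hn]; simp
    have h4 : |z.im| < 2 * Real.pi := hz
    rw [h3, abs_mul, abs_of_pos (by positivity : 0 < 2 * Real.pi)] at h4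
    have h5 : |(n : ℝ)| < 1 := by
      have hpi := Real.pi_pos
      by_contra hcon
      push Not at hcon
      nlinarith
    have h6 : n = 0 := by
      have : |n| < 1 := by exact_mod_cast h5
      exact Int.abs_lt_one_iff.1 this
    apply h0
    rw [hn, h6]; simp

theorem exp_sub_one_ne {z : ℂ} (hz : z ∈ ZS) (h0 : z ≠ 0) : Complex.exp z - 1 ≠ 0 := by
  rw [← E1_mul]; exact mul_ne_zero h0 (E1_ne_zero hz)

/-- logarithmic derivative of `E1` -/
noncomputable def qE (z : ℂ) : ℂ := deriv E1 z / E1 z

theorem diff_qE : DifferentiableOn ℂ qE ZS := by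
  have h1 : DifferentiableOn ℂ (deriv E1) ZS := (diff_E1.differentiableOn).deriv isOpen_ZS
  exact h1.div diff_E1.differentiableOn fun z hz => E1_ne_zero hz

theorem E1_neg (z : ℂ) : E1 (-z) = Complex.exp (-z) * E1 z := by
  rcases eq_or_ne z 0 with rfl | h0
  · simp [E1_zero]
  · have h1 : -z ≠ 0 := neg_ne_zero.2 h0
    rw [E1_of_ne h1, E1_of_ne h0]
    have h2 : Complex.exp (-z) * Complex.exp z = 1 := by
      rw [← Complex.exp_add]; simp
    field_simp
    linear_combination -h2

theorem E1_conj (z : ℂ) : E1 (conj z) = conj (E1 z) := by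
  rcases eq_or_ne z 0 with rfl | h0
  · simp [E1_zero]
  · have h1 : conj z ≠ 0 := by simpa using h0
    rw [E1_of_ne h1, E1_of_ne h0, map_div₀, map_sub, Complex.exp_conj, map_one]

/-- `z q(z) = z e ^ z / (e ^ z - 1) - 1` -/
theorem mul_qE {z : ℂ} (hz : z ∈ ZS) (h0 : z ≠ 0) :
    z * qE z = z * Complex.exp z / (Complex.exp z - 1) - 1 := by
  have h1 : HasDerivAt (fun z => z * E1 z) (1 * E1 z + z * deriv E1 z) z :=
    (hasDerivAt_id z).mul (diff_E1 z).hasDerivAt
  have h2 : HasDerivAt (fun z => Complex.exp z - 1) (Complex.exp z) z :=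
    (Complex.hasDerivAt_exp z).sub_const 1
  have h3 : (fun z => z * E1 z) = fun z => Complex.exp z - 1 := funext E1_mul
  rw [h3] at h1
  have h4 := h1.unique h2
  have hE := E1_ne_zero hz
  have h5 : Complex.exp z - 1 ≠ 0 := exp_sub_one_ne hz h0
  have h6 := E1_mul z
  rw [← h6, qE]
  field_simp
  linear_combination h4

theorem exists_l : ∃ l : ℂ → ℂ, (∀ z ∈ ZS, HasDerivAt l (qE z) z) ∧ l 0 = 0 := by
  obtain ⟨g, hg⟩ := H202.prim_convex isOpen_ZS convex_ZS diff_qE
  exact ⟨fun z => g z - g 0, fun z hz => (hg z hz).sub_const _, by simp⟩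

/-- logarithm of `E1` -/
noncomputable def lE : ℂ → ℂ := Classical.choose exists_l

theorem lE_deriv {z : ℂ} (hz : z ∈ ZS) : HasDerivAt lE (qE z) z :=
  (Classical.choose_spec exists_l).1 z hz

theorem lE_zero : lE 0 = 0 := (Classical.choose_spec exists_l).2

theorem lE_cont {z : ℂ} (hz : z ∈ ZS) : ContinuousAt lE z := (lE_deriv hz).continuousAt

theorem lE_diff : DifferentiableOn ℂ lE ZS := fun z hz =>
  (lE_deriv hz).differentiableAt.differentiableWithinAt

theorem exp_lE {z : ℂ} (hz : z ∈ ZS) : Complex.exp (lE z) = E1 z := by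
  have h1 : ∀ z ∈ ZS, HasDerivAt (fun z => Complex.exp (-(lE z)) * E1 z) 0 z := by
    intro z hz
    have h2 : HasDerivAt (fun z => Complex.exp (-(lE z))) (Complex.exp (-(lE z)) * -(qE z)) z :=
      (lE_deriv hz).neg.cexp
    have h3 := h2.mul (diff_E1 z).hasDerivAt
    refine h3.congr_deriv ?_
    have h4 := E1_ne_zero hz
    have h5 : qE z * E1 z = deriv E1 z := by
      simp only [qE]; field_simp
    linear_combination (-Complex.exp (-(lE z))) * h5
  have h4 : EqOn (fun z => Complex.exp (-(lE z)) * E1 z) (fun _ => 1) ZS := by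
    refine isOpen_ZS.eqOn_of_deriv_eq convex_ZS.isPreconnected
      (fun z hz => (h1 z hz).differentiableAt.differentiableWithinAt)
      (differentiableOn_const _) ?_ zero_mem_ZS ?_
    · intro z hz
      rw [(h1 z hz).deriv]; simp
    · simp [lE_zero, E1_zero]
  have h5 := h4 hz
  simp only at h5
  have h6 : Complex.exp (lE z) * Complex.exp (-(lE z)) = 1 := by
    rw [← Complex.exp_add]; simp
  linear_combination (-(Complex.exp (lE z))) * h5 + E1 z * h6

theorem lE_neg {z : ℂ} (hz : z ∈ ZS) : lE (-z) = lE z - z := by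
  have h1 : ∀ z ∈ ZS, HasDerivAt (fun z => lE (-z)) (qE z - 1) z := by
    intro z hz
    have h2 : HasDerivAt (fun z => lE (-z)) (-(qE (-z))) z := by
      have := (lE_deriv (neg_mem_ZS hz)).scomp z (hasDerivAt_neg z)
      simpa [Function.comp_def] using this
    refine h2.congr_deriv ?_
    -- q(z) + q(-z) = 1
    have h3 : HasDerivAt (fun z => E1 (-z)) (-(deriv E1 (-z))) z := by
      have := (diff_E1 (-z)).hasDerivAt.scomp z (hasDerivAt_neg z)
      simpa [Function.comp_def] using this
    have h4 : HasDerivAt (fun z => Complex.exp (-z) * E1 z)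
        (-Complex.exp (-z) * E1 z + Complex.exp (-z) * deriv E1 z) z := by
      have h5 : HasDerivAt (fun z => Complex.exp (-z)) (-Complex.exp (-z)) z := by
        have := (hasDerivAt_neg z).cexp
        simpa using this
      exact h5.mul (diff_E1 z).hasDerivAt
    have h6 : (fun z => E1 (-z)) = fun z => Complex.exp (-z) * E1 z := funext E1_neg
    rw [h6] at h3
    have h7 := h3.unique h4
    have h8 := E1_ne_zero hz
    have h9 := E1_ne_zero (neg_mem_ZS hz)
    have h10 := Complex.exp_ne_zero (-z)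
    rw [qE, qE, E1_neg]
    have h11 : deriv E1 (-z) = Complex.exp (-z) * E1 z - Complex.exp (-z) * deriv E1 z := by
      linear_combination -h7
    rw [h11]
    field_simp
    ring
  have h4 : EqOn (fun z => lE (-z)) (fun z => lE z - z) ZS := by
    refine isOpen_ZS.eqOn_of_deriv_eq convex_ZS.isPreconnected
      (fun z hz => (h1 z hz).differentiableAt.differentiableWithinAt)
      (fun z hz => ((lE_deriv hz).sub (hasDerivAt_id z)).differentiableAt.differentiableWithinAt)
      ?_ zero_mem_ZS ?_
    · intro z hz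
      rw [(h1 z hz).deriv]
      exact (((lE_deriv hz).sub (hasDerivAt_id z)).deriv).symm
    · simp [lE_zero]
  exact h4 hz

theorem lE_conj {z : ℂ} (hz : z ∈ ZS) : lE (conj z) = conj (lE z) := by
  have hq : ∀ z, qE (conj z) = conj (qE z) := by
    intro z
    have h1 : HasDerivAt (fun z => conj (E1 (conj z))) (conj (deriv E1 (conj z))) z := by
      have h0 := ((diff_E1 (conj z)).hasDerivAt).conj_conj
      rw [Complex.conj_conj] at h0
      exact h0
    have h2 : (fun z => conj (E1 (conj z))) = E1 := by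
      ext z; rw [E1_conj, Complex.conj_conj]
    rw [h2] at h1
    have h3 := h1.deriv
    rw [qE, qE, map_div₀, E1_conj, h3, Complex.conj_conj]
  have h1 : ∀ z ∈ ZS, HasDerivAt (fun z => conj (lE (conj z))) (qE z) z := by
    intro z hz
    have h0 := (lE_deriv (conj_mem_ZS hz)).conj_conj
    rw [hq, Complex.conj_conj, Complex.conj_conj] at h0
    exact h0
  have h4 : EqOn (fun z => conj (lE (conj z))) lE ZS := by
    refine isOpen_ZS.eqOn_of_deriv_eq convex_ZS.isPreconnected
      (fun z hz => (h1 z hz).differentiableAt.differentiableWithinAt)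
      lE_diff ?_ zero_mem_ZS ?_
    · intro z hz
      rw [(h1 z hz).deriv]
      exact ((lE_deriv hz).deriv).symm
    · simp [lE_zero]
  have h5 := h4 hz
  simp only at h5
  rw [← h5, Complex.conj_conj]

/-- (I2): `Re (z q(z)) < Re z` for `Re z ≥ 0`, `z ≠ 0` -/
theorem I2 {z : ℂ} (hz : z ∈ ZS) (h0 : z ≠ 0) (hx : 0 ≤ z.re) : (z * qE z).re < z.re := by
  have h1 := exp_sub_one_ne hz h0
  have h2 : z * qE z - z = z / (Complex.exp z - 1) - 1 := by
    rw [mul_qE hz h0]; field_simp; ring
  have h3 : (z / (Complex.exp z - 1)).re < 1 := by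
    rw [Complex.div_re, ← add_div, div_lt_one (Complex.normSq_pos.2 h1), Complex.normSq_apply]
    have h4 := I2_real (x := z.re) (y := z.im) hx hz (by
      by_contra hcon
      push Not at hcon
      exact h0 (Complex.ext hcon.1 hcon.2))
    simp only [Complex.sub_re, Complex.sub_im, Complex.one_re, Complex.one_im, Complex.exp_re,
      Complex.exp_im]
    nlinarith
  have h5 := congrArg Complex.re h2
  simp only [Complex.sub_re, Complex.one_re] at h5
  linarith

/-- derivative of `z q(z)` -/
theorem deriv_mul_qE {z : ℂ} (hz : z ∈ ZS) (h0 : z ≠ 0) :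
    HasDerivAt (fun z => z * qE z)
      (Complex.exp z * (Complex.exp z - 1 - z) / (Complex.exp z - 1) ^ 2) z := by
  have h1 := exp_sub_one_ne hz h0
  have h2 : HasDerivAt (fun z => z * Complex.exp z / (Complex.exp z - 1) - 1)
      (((1 * Complex.exp z + z * Complex.exp z) * (Complex.exp z - 1) -
        (z * Complex.exp z) * Complex.exp z) / (Complex.exp z - 1) ^ 2) z :=
    ((((hasDerivAt_id z).mul (Complex.hasDerivAt_exp z)).div
      ((Complex.hasDerivAt_exp z).sub_const 1) h1).sub_const 1)
  have h3 : (fun z => z * qE z) =ᶠ[𝓝 z] fun z => z * Complex.exp z / (Complex.exp z - 1) - 1 := by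
    filter_upwards [isOpen_ZS.mem_nhds hz, isOpen_ne.mem_nhds h0] with w hw1 hw2
    exact mul_qE hw1 hw2
  refine (h2.congr_of_eventuallyEq h3).congr_deriv ?_
  congr 1
  ring

/-- (I1): `Re (z q(z))' > 1 / 2` for `Re z > 0` -/
theorem I1 {z : ℂ} (hz : z ∈ ZS) (hx : 0 < z.re) :
    1 / 2 < (Complex.exp z * (Complex.exp z - 1 - z) / (Complex.exp z - 1) ^ 2).re := by
  have h0 : z ≠ 0 := by rintro rfl; simp at hx
  have h1 := exp_sub_one_ne hz h0
  have hE := Complex.exp_ne_zero z
  have hEn : Complex.exp (-z) = (Complex.exp z)⁻¹ := Complex.exp_neg z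
  have hc : Complex.cosh z - 1 ≠ 0 := by
    rw [Complex.cosh, hEn]
    intro h2
    apply h1
    have h3 : (Complex.exp z - 1) ^ 2 = 0 := by
      field_simp at h2
      linear_combination h2
    exact pow_eq_zero_iff (two_ne_zero) |>.1 h3
  have h2 : Complex.exp z * (Complex.exp z - 1 - z) / (Complex.exp z - 1) ^ 2 - 1 / 2 =
      (Complex.sinh z - z) / (2 * (Complex.cosh z - 1)) := by
    have h3 : 2 * (Complex.cosh z - 1) = (Complex.exp z - 1) ^ 2 / Complex.exp z := by
      rw [Complex.cosh, hEn]; field_simp; ring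
    have h4 : Complex.sinh z = (Complex.exp z - (Complex.exp z)⁻¹) / 2 := by
      rw [Complex.sinh, hEn]
    rw [h3, h4]
    field_simp
    ring
  have hsinh : Complex.sinh z = ⟨Real.sinh z.re * Real.cos z.im, Real.cosh z.re * Real.sin z.im⟩ := by
    apply Complex.ext
    · simp only [Complex.sinh, Complex.div_ofNat_re, Complex.sub_re, Complex.exp_re, Complex.neg_re,
        Complex.neg_im, Real.cos_neg, Real.sinh_eq]
      ring
    · simp only [Complex.sinh, Complex.div_ofNat_im, Complex.sub_im, Complex.exp_im, Complex.neg_re,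
        Complex.neg_im, Real.sin_neg, Real.cosh_eq]
      ring
  have hcosh : Complex.cosh z = ⟨Real.cosh z.re * Real.cos z.im, Real.sinh z.re * Real.sin z.im⟩ := by
    apply Complex.ext
    · simp only [Complex.cosh, Complex.div_ofNat_re, Complex.add_re, Complex.exp_re, Complex.neg_re,
        Complex.neg_im, Real.cos_neg, Real.cosh_eq]
      ring
    · simp only [Complex.cosh, Complex.div_ofNat_im, Complex.add_im, Complex.exp_im, Complex.neg_re,
        Complex.neg_im, Real.sin_neg, Real.sinh_eq]
      ring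
  have h5 : 0 < ((Complex.sinh z - z) / (2 * (Complex.cosh z - 1))).re := by
    have h6 : (Complex.sinh z - z) / (2 * (Complex.cosh z - 1)) =
        ((1 / 2 : ℝ) : ℂ) * ((Complex.sinh z - z) / (Complex.cosh z - 1)) := by
      push_cast; field_simp
    rw [h6, Complex.re_ofReal_mul, Complex.div_re, ← add_div]
    have h7 := I1_real (x := z.re) (y := z.im) hx hz
    have h8 : 0 < Complex.normSq (Complex.cosh z - 1) := Complex.normSq_pos.2 hc
    refine mul_pos (by norm_num) (div_pos ?_ h8)
    rw [hsinh, hcosh]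
    simp only [Complex.sub_re, Complex.sub_im, Complex.one_re, Complex.one_im]
    simpa using h7
  have h9 := congrArg Complex.re h2
  simp only [Complex.sub_re] at h9
  have h10 : ((1 : ℂ) / 2).re = 1 / 2 := by simp
  rw [h10] at h9
  linarith

end Vale.Agent.P097.H990
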